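import Vale.Agent.P085.Free
import Vale.Agent.P086.Key

/-! Approximately free families of unitaries are approximately generated by three elements. -/

open Filter Topology
open scoped InnerProductSpace ComplexOrder ComplexConjugate

namespace Vale.Agent.P085

open Vale.Agent.P086

section General

variable {B : Type*} [CStarAlgebra B]

lemma norm_le_one_of_add {a b : B} (h : star a * a + star b * b = 1) : ‖a‖ ≤ 1 := by
  let _ := CStarAlgebra.spectralOrder B
  have _ := CStarAlgebra.spectralOrderedRing B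
  have h1 : star a * a ≤ 1 := by
    rw [← h]; exact le_add_of_nonneg_right (star_mul_self_nonneg b)
  have h2 := (CStarAlgebra.norm_le_one_iff_of_nonneg _ (star_mul_self_nonneg a)).2 h1
  rw [CStarRing.norm_star_mul_self] at h2
  nlinarith [norm_nonneg a]

lemma inv_mem_of_closed {S : StarSubalgebra ℂ B} (hS : IsClosed (S : Set B)) {a b : B}
    (ha : a ∈ S) (h1 : b * a = 1) (h2 : a * b = 1) : b ∈ S := by
  have hu : IsUnit ((⟨a, ha⟩ : S) : B) := ⟨⟨a, b, h2, h1⟩, rfl⟩
  obtain ⟨u, hu'⟩ := (StarSubalgebra.coe_isUnit S).1 hu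
  have h3 : a * ((u⁻¹ : Sˣ) : S) = 1 := by
    have := congrArg Subtype.val u.mul_inv
    rwa [hu'] at this
  have : b = ((u⁻¹ : Sˣ) : S) := by
    rw [← mul_one b, ← h3, ← mul_assoc, h1, one_mul]
  rw [this]
  exact Subtype.property _

lemma exists_resolvent (x : B) : ∃ R : B, star R = R ∧ R * (1 + x * star x) = 1 ∧
    (1 + x * star x) * R = 1 ∧ ‖R‖ ≤ 1 ∧ ‖(2 : ℂ) • (R * x)‖ ≤ 1 := by
  have hu : IsUnit (1 + x * star x) := by
    have h1 : (-1 : ℝ) ∉ spectrum ℝ (star (star x) * star x) := fun h => by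
      linarith [spectrum_star_mul_self_nonneg _ h]
    rw [spectrum.notMem_iff, star_star, map_neg, map_one] at h1
    have := h1.neg
    rwa [neg_sub, sub_neg_eq_add, add_comm] at this
  obtain ⟨u, hu⟩ := hu
  obtain ⟨R, h1, h2⟩ : ∃ R : B, R * (1 + x * star x) = 1 ∧ (1 + x * star x) * R = 1 :=
    ⟨(u⁻¹ : Bˣ), by rw [← hu, u.inv_mul], by rw [← hu, u.mul_inv]⟩
  have h3 : star R = R := by
    have := mul_of_star h2
    rw [star_add, star_one, star_mul, star_star] at this
    rw [← mul_one (star R), ← h2, ← mul_assoc, this, one_mul]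
  have h4 : R * (x * star x) = 1 - R := by
    rw [← h1, mul_add, mul_one]; abel
  have h5 : star (star ((2 : ℂ) • (R * x))) * star ((2 : ℂ) • (R * x)) +
      star (1 - (2 : ℂ) • R) * (1 - (2 : ℂ) • R) = 1 := by
    have e : R * x * (star x * R) = R - R * R := by
      rw [mul_assoc, ← mul_assoc x, ← mul_assoc, h4, sub_mul, one_mul]
    simp only [star_star, star_smul, star_mul, star_sub, star_one, h3, star_ofNat,
      smul_mul_smul_comm, e, sub_mul, mul_sub, one_mul, mul_one]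
    module
  have h6 := norm_le_one_of_add h5
  rw [add_comm] at h5
  have h7 := norm_le_one_of_add h5
  rw [norm_star] at h6
  refine ⟨R, h3, h1, h2, ?_, h6⟩
  have h8 := norm_sub_le (1 : B) (1 - (2 : ℂ) • R)
  rw [sub_sub_cancel, norm_smul] at h8
  have := norm_one_le (A := B)
  simp only [Complex.norm_ofNat] at h8
  linarith

end General

variable {G : Type} [Group G] (A : Type*) [CStarAlgebra A]

/-- The regular representation together with all unitary representations in `A`. -/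
noncomputable def univ (g : G) : BG G × ((G →* unitary A) → A) := (lam g, fun π => (π g : A))

lemma univ_mul (g h : G) : univ A (g * h) = univ A g * univ A h :=
  Prod.ext (map_mul lam g h) (funext fun π => by simp [univ])

lemma univ_one : univ A (1 : G) = 1 :=
  Prod.ext (map_one lam) (funext fun π => by simp [univ])

lemma univ_star (g : G) : star (univ A g) = univ A g⁻¹ :=
  Prod.ext (star_lam g) (funext fun π => by
    change star (π g : A) = (π g⁻¹ : A)
    rw [map_inv, ← Unitary.star_eq_inv, Unitary.coe_star])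

variable (G) in
/-- The universal group algebra. -/
noncomputable def US : StarSubalgebra ℂ (BG G × ((G →* unitary A) → A)) where
  toSubalgebra := (Submodule.span ℂ (Set.range (univ (G := G) A))).toSubalgebra
    (Submodule.subset_span ⟨1, univ_one A⟩) fun x y hx hy => by
      induction hx, hy using Submodule.span_induction₂ with
      | mem_mem x y hx hy =>
        obtain ⟨g, rfl⟩ := hx
        obtain ⟨h, rfl⟩ := hy
        exact Submodule.subset_span ⟨g * h, univ_mul A g h⟩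
      | zero_left => rw [zero_mul]; exact zero_mem _
      | zero_right => rw [mul_zero]; exact zero_mem _
      | add_left _ _ _ _ _ _ h1 h2 => rw [add_mul]; exact add_mem h1 h2
      | add_right _ _ _ _ _ _ h1 h2 => rw [mul_add]; exact add_mem h1 h2
      | smul_left r _ _ _ _ h => rw [smul_mul_assoc]; exact Submodule.smul_mem _ _ h
      | smul_right r _ _ _ _ h => rw [mul_smul_comm]; exact Submodule.smul_mem _ _ h
  star_mem' {x} hx := by
    change x ∈ Submodule.span ℂ _ at hx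
    change star x ∈ Submodule.span ℂ _
    induction hx using Submodule.span_induction with
    | mem x hx =>
      obtain ⟨g, rfl⟩ := hx
      exact Submodule.subset_span ⟨g⁻¹, (univ_star A g).symm⟩
    | zero => rw [star_zero]; exact zero_mem _
    | add _ _ _ _ h1 h2 => rw [star_add]; exact add_mem h1 h2
    | smul r _ _ h => rw [star_smul]; exact Submodule.smul_mem _ _ h

variable {A}

lemma univ_mem (g : G) : univ A g ∈ US G A := Submodule.subset_span ⟨g, rfl⟩

lemma US.inM {s : BG G × ((G →* unitary A) → A)} (hs : s ∈ US G A) : InM s.1 := by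
  change s ∈ Submodule.span ℂ _ at hs
  induction hs using Submodule.span_induction with
  | mem x hx => obtain ⟨g, rfl⟩ := hx; exact InM.lam g
  | zero => exact InM.zero
  | add _ _ _ _ h1 h2 => exact h1.add h2
  | smul r _ _ h => exact h.smul r

lemma US.commute {s : BG G × ((G →* unitary A) → A)} (hs : s ∈ US G A) (π : G →* unitary A)
    {p : A} (hp : ∀ g, Commute p (π g)) : Commute p (s.2 π) := by
  change s ∈ Submodule.span ℂ _ at hs
  induction hs using Submodule.span_induction with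
  | mem x hx => obtain ⟨g, rfl⟩ := hx; exact hp g
  | zero => exact Commute.zero_right p
  | add _ _ _ _ h1 h2 => exact h1.add_right h2
  | smul r _ _ h => exact h.smul_right r

lemma US.bound {s : BG G × ((G →* unitary A) → A)} (hs : s ∈ US G A) :
    ∃ (T : Finset G) (C : ℝ), 0 ≤ C ∧ ∀ π : G →* unitary A, ‖s.2 π‖ ≤ C ∧
      ∀ (φ : A →ₗ[ℂ] ℂ) (δ : ℝ), φ 1 = 1 → 0 ≤ δ → (∀ g ∈ T, g ≠ 1 → ‖φ (π g)‖ ≤ δ) →
        ‖φ (s.2 π) - s.1 (dl 1) 1‖ ≤ C * δ := by
  classical
  change s ∈ Submodule.span ℂ _ at hs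
  induction hs using Submodule.span_induction with
  | mem x hx =>
    obtain ⟨g, rfl⟩ := hx
    refine ⟨{g}, 1, zero_le_one, fun π => ⟨norm_le_one_of_proj (by
      change IsStarProjection (star (π g : A) * (π g : A))
      rw [(π g).2.1]; exact IsStarProjection.one A), fun φ δ h1 h2 h3 => ?_⟩⟩
    change ‖φ (π g) - lam g (dl 1) 1‖ ≤ _
    rw [lam_dl, mul_one, one_mul]
    by_cases hg : g = 1
    · simp [hg, h1, h2, dl_self]
    · rw [dl_ne (Ne.symm hg), sub_zero]
      exact h3 g (Finset.mem_singleton_self g) hg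
  | zero => exact ⟨∅, 0, le_rfl, fun π => ⟨by simp, fun φ δ _ _ _ => by simp⟩⟩
  | add x y _ _ h1 h2 =>
    obtain ⟨T, C, c0, c1⟩ := h1
    obtain ⟨T', C', d0, d1⟩ := h2
    refine ⟨T ∪ T', C + C', by positivity, fun π => ⟨(norm_add_le _ _).trans
      (add_le_add (c1 π).1 (d1 π).1), fun φ δ h1 h2 h3 => ?_⟩⟩
    have a1 := (c1 π).2 φ δ h1 h2 fun g hg => h3 g (Finset.mem_union_left _ hg)
    have a2 := (d1 π).2 φ δ h1 h2 fun g hg => h3 g (Finset.mem_union_right _ hg)
    have e : φ ((x + y).2 π) - (x + y).1 (dl 1) 1 =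
        (φ (x.2 π) - x.1 (dl 1) 1) + (φ (y.2 π) - y.1 (dl 1) 1) := by
      simp only [Prod.snd_add, Prod.fst_add, Pi.add_apply, map_add, add_apply,
        lp.coeFn_add]
      ring
    rw [e]
    exact (norm_add_le _ _).trans (by linarith)
  | smul r x _ h =>
    obtain ⟨T, C, c0, c1⟩ := h
    refine ⟨T, ‖r‖ * C, by positivity, fun π => ⟨?_, fun φ δ h1 h2 h3 => ?_⟩⟩
    · change ‖r • x.2 π‖ ≤ _
      rw [norm_smul]
      exact mul_le_mul_of_nonneg_left (c1 π).1 (norm_nonneg _)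
    · have e : φ ((r • x).2 π) - (r • x).1 (dl 1) 1 = r * (φ (x.2 π) - x.1 (dl 1) 1) := by
        simp only [Prod.smul_snd, Prod.smul_fst, Pi.smul_apply, map_smul,
          smul_apply, lp.coeFn_smul, smul_eq_mul]
        ring
      rw [e, norm_mul, mul_assoc]
      exact mul_le_mul_of_nonneg_left ((c1 π).2 φ δ h1 h2 h3) (norm_nonneg _)

variable (A) in
lemma US.exists_vec (ξ : L2 G) {η : ℝ} (hη : 0 < η) :
    ∃ s ∈ US G A, ‖s.1 (dl 1) - ξ‖ ≤ η := by
  obtain ⟨ζ, h1, h2⟩ := Metric.mem_closure_iff.1 (dense_span_of_le dense_dl ξ) η hη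
  have : ∃ s ∈ US G A, s.1 (dl 1) = ζ := by
    clear h2
    induction h1 using Submodule.span_induction with
    | mem x hx =>
      obtain ⟨g, rfl⟩ := hx
      exact ⟨_, univ_mem g, by change lam g (dl 1) = _; rw [lam_dl, mul_one]⟩
    | zero => exact ⟨0, zero_mem _, rfl⟩
    | add _ _ _ _ h1 h2 =>
      obtain ⟨s, hs, rfl⟩ := h1
      obtain ⟨s', hs', rfl⟩ := h2
      exact ⟨s + s', add_mem hs hs', rfl⟩
    | smul r _ _ h =>
      obtain ⟨s, hs, rfl⟩ := h
      exact ⟨r • s, SMulMemClass.smul_mem r hs, rfl⟩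
  obtain ⟨s, hs, rfl⟩ := this
  exact ⟨s, hs, by rw [← dist_eq_norm, dist_comm]; exact h2.le⟩

variable (A) in
lemma US.kaplansky {u : BG G} (hu : UM u) {η : ℝ} (hη : 0 < η) :
    ∃ s ∈ US G A, ‖s.1‖ ≤ 1 ∧ ‖s.1 (dl 1) - u (dl 1)‖ ≤ η := by
  obtain ⟨s₀, hs₀, h0⟩ := US.exists_vec A (u (dl 1)) (η := η / 4) (by positivity)
  obtain ⟨R, r1, r2, r3, r4, r5⟩ := exists_resolvent s₀.1
  set S := ((US G A).map (StarAlgHom.fst ℂ _ _)).topologicalClosure with hS
  have x1 : s₀.1 ∈ S := StarSubalgebra.le_topologicalClosure _ ⟨s₀, hs₀, rfl⟩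
  have x2 : R ∈ S := inv_mem_of_closed (StarSubalgebra.isClosed_topologicalClosure _)
    (add_mem (one_mem _) (mul_mem x1 (star_mem x1))) r2 r3
  have x3 : (2 : ℂ) • (R * s₀.1) ∈ S := SMulMemClass.smul_mem _ (mul_mem x2 x1)
  obtain ⟨_, ⟨s, hs, rfl⟩, h1⟩ := Metric.mem_closure_iff.1 x3 (η / 4) (by positivity)
  change dist _ s.1 < _ at h1
  rw [dist_comm, dist_eq_norm] at h1
  have hx := US.inM hs₀
  have e1 : (2 : ℂ) • (R * s₀.1) - u =
      R * (s₀.1 - u) + (R * s₀.1) * (star (u - s₀.1) * u) := by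
    have : u = R * u + R * (s₀.1 * star s₀.1) * u := by
      rw [← add_mul, ← mul_one_add, r2, one_mul]
    rw [star_sub, sub_mul, hu.left, mul_sub, mul_sub, mul_one, two_smul]
    nth_rw 1 [this]
    simp only [mul_assoc]
    abel
  have n1 : ‖R * s₀.1‖ ≤ 1 := by
    rw [norm_smul] at r5
    simp only [Complex.norm_ofNat] at r5
    linarith [norm_nonneg (R * s₀.1)]
  have op : ∀ (T : BG G) (ξ : L2 G), ‖T‖ ≤ 1 → ‖T ξ‖ ≤ ‖ξ‖ := fun T ξ hT =>
    (T.le_opNorm ξ).trans (mul_le_of_le_one_left (norm_nonneg _) hT)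
  have h2 : ‖((2 : ℂ) • (R * s₀.1) - u) (dl 1)‖ ≤ η / 2 := by
    rw [e1, add_apply]
    have a1 := op R ((s₀.1 - u) (dl 1)) r4
    have a2 := op (R * s₀.1) (star (u - s₀.1) (u (dl 1))) n1
    rw [hu.norm_mul_dl (hu.mem.sub hx).star, (hu.mem.sub hx).norm_star_dl,
      sub_apply, norm_sub_rev] at a2
    rw [sub_apply] at a1
    refine (norm_add_le _ _).trans ?_
    change ‖R ((s₀.1 - u) (dl 1))‖ + ‖(R * s₀.1) (star (u - s₀.1) (u (dl 1)))‖ ≤ _
    rw [sub_apply]
    linarith
  have h3 : ‖s.1‖ ≤ 1 + η / 4 := by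
    linarith [norm_le_norm_add_norm_sub' s.1 ((2 : ℂ) • (R * s₀.1))]
  have hpos : 0 < 1 + η / 4 := by positivity
  refine ⟨(((1 + η / 4)⁻¹ : ℝ) : ℂ) • s, SMulMemClass.smul_mem _ hs, ?_, ?_⟩
  · rw [Prod.smul_fst, norm_smul, Complex.norm_real, Real.norm_of_nonneg (by positivity),
      inv_mul_le_iff₀ hpos, mul_one]
    exact h3
  · have h4 : ‖(((1 + η / 4)⁻¹ : ℝ) : ℂ) • s.1 - s.1‖ ≤ η / 4 := by
      nth_rw 2 [← one_smul ℂ s.1]
      rw [← sub_smul, norm_smul, ← Complex.ofReal_one, ← Complex.ofReal_sub, Complex.norm_real,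
        norm_sub_rev, Real.norm_of_nonneg (sub_nonneg.2
          (inv_le_one_of_one_le₀ (by linarith)))]
      calc _ ≤ (1 - (1 + η / 4)⁻¹) * (1 + η / 4) := mul_le_mul_of_nonneg_left h3
            (sub_nonneg.2 (inv_le_one_of_one_le₀ (by linarith)))
        _ = η / 4 := by field_simp; ring
    have e2 : ((((1 + η / 4)⁻¹ : ℝ) : ℂ) • s).1 (dl 1) - u (dl 1) =
        ((((1 + η / 4)⁻¹ : ℝ) : ℂ) • s.1 - s.1) (dl 1) + (s.1 - (2 : ℂ) • (R * s₀.1)) (dl 1) +
          ((2 : ℂ) • (R * s₀.1) - u) (dl 1) := by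
      simp only [Prod.smul_fst, sub_apply]
      abel
    have op' : ∀ T : BG G, ‖T (dl 1)‖ ≤ ‖T‖ := fun T => by
      simpa [norm_dl] using T.le_opNorm (dl 1)
    rw [e2]
    refine (norm_add₃_le).trans ?_
    linarith [op' ((((1 + η / 4)⁻¹ : ℝ) : ℂ) • s.1 - s.1), op' (s.1 - (2 : ℂ) • (R * s₀.1))]

/-- Evaluation of a word in elements and their adjoints. -/
def sw {B κ : Type*} [Monoid B] [Star B] (a : κ → B) (L : List (κ × Bool)) : B :=
  (L.map fun p => cond p.2 (a p.1) (star (a p.1))).prod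

lemma sw_mem {B κ : Type*} [Semiring B] [StarRing B] [Algebra ℂ B] [StarModule ℂ B]
    {S : StarSubalgebra ℂ B} {a : κ → B} (ha : ∀ x, a x ∈ S) (L : List (κ × Bool)) :
    sw a L ∈ S := by
  refine list_prod_mem fun y hy => ?_
  obtain ⟨⟨x, _ | _⟩, -, rfl⟩ := List.mem_map.1 hy
  · exact star_mem (ha x)
  · exact ha x

lemma map_sw {B B' κ : Type*} [Monoid B] [Star B] [Monoid B'] [Star B'] (φ : B →* B')
    (hφ : ∀ x, φ (star x) = star (φ x)) (a : κ → B) (L : List (κ × Bool)) :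
    φ (sw a L) = sw (fun x => φ (a x)) L := by
  rw [sw, sw, map_list_prod, List.map_map]
  congr 2
  funext ⟨x, b⟩
  cases b
  · exact hφ _
  · rfl

lemma hom_mk {B κ : Type*} [Monoid B] [Star B] (π : FreeGroup κ →* B)
    (hπ : ∀ k, star (π k) = π k⁻¹) (L : List (κ × Bool)) :
    π (FreeGroup.mk L) = sw (fun x => π (FreeGroup.of x)) L := by
  induction L with
  | nil => rw [← FreeGroup.one_eq_mk, map_one]; rfl
  | cons p L ih =>
    have e : FreeGroup.mk (p :: L) = FreeGroup.mk [p] * FreeGroup.mk L := by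
      rw [FreeGroup.mul_mk]; rfl
    rw [e, map_mul, ih, sw, sw, List.map_cons, List.prod_cons]
    congr 1
    obtain ⟨x, _ | _⟩ := p
    · exact (hπ (FreeGroup.of x)).symm
    · rfl

variable (A) in
lemma exists_words {ι : Type} [Finite ι] {e : Fin 3 → ι} (he : Function.Injective e) {ε : ℝ}
    (hε : 0 < ε) : ∃ s : Fin 3 → _, (∀ x, s x ∈ US (FreeGroup ι) A) ∧ ∀ i, ∃ L,
      ‖(sw s L).1 (dl 1) - dl (FreeGroup.of i)‖ ≤ ε := by
  classical
  let _ := Fintype.ofFinite ι
  obtain ⟨U, hU, -, hw⟩ := key_finset (keyProp he) Finset.univ (ε / 2) (by positivity)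
  choose w hw using fun i => hw i (Finset.mem_univ i)
  have hπ := hU.isRep.comp (FreeGroup.map e)
  set π := (repOf U).comp (FreeGroup.map e) with hπ'
  obtain ⟨K, hK⟩ : ∃ K : ℝ, K = ∑ i, ((w i).toWord.length : ℝ) := ⟨_, rfl⟩
  have hK0 : 0 ≤ K := by rw [hK]; positivity
  choose s hs1 hs2 hs3 using fun x => US.kaplansky A (hπ.um (FreeGroup.of x))
    (η := ε / (2 * (K + 1))) (by positivity)
  refine ⟨s, hs1, fun i => ⟨(w i).toWord, ?_⟩⟩
  have e1 : (sw s (w i).toWord).1 = sw (fun x => (s x).1) (w i).toWord :=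
    map_sw (MonoidHom.fst _ _) (fun _ => rfl) s _
  have e2 : U (dl (FreeGroup.map e (w i))) =
      sw (fun x => π (FreeGroup.of x)) (w i).toWord (dl 1) := by
    rw [← hom_mk π hπ.star, FreeGroup.mk_toWord, hπ', MonoidHom.comp_apply, hU.repOf_dl]
  have k1 := tele (fun p : Fin 3 × Bool => cond p.2 (s p.1).1 (star (s p.1).1))
    (fun p => cond p.2 (π (FreeGroup.of p.1)) (star (π (FreeGroup.of p.1)))) (w i).toWord
    (ContinuousLinearMap.apply ℂ (L2 (FreeGroup ι)) (dl 1)).toLinearMap (ε / (2 * (K + 1)))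
    fun L₁ p L₂ _ => by
      have m1 : InM (cond p.2 (π (FreeGroup.of p.1)) (star (π (FreeGroup.of p.1))) -
          cond p.2 (s p.1).1 (star (s p.1).1)) := by
        obtain ⟨x, _ | _⟩ := p
        · exact (hπ.mem _).star.sub (US.inM (hs1 x)).star
        · exact (hπ.mem _).sub (US.inM (hs1 x))
      have m2 : ‖(cond p.2 (π (FreeGroup.of p.1)) (star (π (FreeGroup.of p.1))) -
          cond p.2 (s p.1).1 (star (s p.1).1)) (dl 1)‖ ≤ ε / (2 * (K + 1)) := by
        obtain ⟨x, _ | _⟩ := p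
        · change ‖(star (π (FreeGroup.of x)) - star (s x).1) (dl 1)‖ ≤ _
          rw [← star_sub, ((hπ.mem _).sub (US.inM (hs1 x))).norm_star_dl,
            sub_apply, norm_sub_rev]
          exact hs3 x
        · change ‖π (FreeGroup.of x) (dl 1) - (s x).1 (dl 1)‖ ≤ _
          rw [norm_sub_rev]
          exact hs3 x
      have m3 := (hπ.um (FreeGroup.mk L₂)).norm_mul_dl m1
      rw [hom_mk π hπ.star] at m3
      have m4 := norm_prod_le (F := fun p : Fin 3 × Bool => cond p.2 (s p.1).1 (star (s p.1).1))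
        (by
          rintro ⟨x, _ | _⟩
          · exact (norm_star _).trans_le (hs2 x)
          · exact hs2 x) L₁
      refine le_trans ?_ (m3.trans_le m2)
      exact (ContinuousLinearMap.le_opNorm (L₁.map fun p : Fin 3 × Bool =>
        cond p.2 (s p.1).1 (star (s p.1).1)).prod _).trans
        (mul_le_of_le_one_left (norm_nonneg _) m4)
  change ‖sw (fun x => π (FreeGroup.of x)) (w i).toWord (dl 1) -
    sw (fun x => (s x).1) (w i).toWord (dl 1)‖ ≤ _ at k1
  rw [← e1, ← e2, norm_sub_rev] at k1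
  have k2 : ((w i).toWord.length : ℝ) ≤ K := by
    rw [hK]
    exact Finset.single_le_sum (f := fun i => ((w i).toWord.length : ℝ))
      (fun _ _ => by positivity) (Finset.mem_univ i)
  have k3 : ((w i).toWord.length : ℝ) * (ε / (2 * (K + 1))) ≤ ε / 2 := by
    rw [← mul_div_assoc, div_le_div_iff₀ (by positivity) two_pos]
    nlinarith
  linarith [norm_sub_le_norm_sub_add_norm_sub ((sw s (w i).toWord).1 (dl 1))
    (U (dl (FreeGroup.map e (w i)))) (dl (FreeGroup.of i)), hw i]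

variable (A) in
theorem group_approx {ι : Type} [Finite ι] {e : Fin 3 → ι} (he : Function.Injective e) {ε : ℝ}
    (hε : 0 < ε) : ∃ (T : Finset (FreeGroup ι)) (δ R : ℝ), 0 < δ ∧ 0 ≤ R ∧
      ∀ (π : FreeGroup ι →* unitary A) (φ : A →ₗ[ℂ] ℂ), φ 1 = 1 →
        (∀ g ∈ T, g ≠ 1 → ‖φ (π g)‖ ≤ δ) →
        ∃ a : Fin 3 → A, (∀ x (p : A), (∀ g, Commute p (π g)) → Commute p (a x)) ∧
          ∀ i, ∃ y ∈ StarAlgebra.adjoin ℂ (Set.range a), ‖y‖ ≤ R ∧
            (φ (star (y - π (FreeGroup.of i)) * (y - π (FreeGroup.of i)))).re ≤ ε ^ 2 := by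
  classical
  let _ := Fintype.ofFinite ι
  obtain ⟨s, hs, hL⟩ := exists_words A he (half_pos hε)
  choose L hL using hL
  have m1 : ∀ i, sw s (L i) ∈ US (FreeGroup ι) A := fun i => sw_mem hs _
  have m2 : ∀ i, sw s (L i) - univ A (FreeGroup.of i) ∈ US (FreeGroup ι) A := fun i =>
    sub_mem (m1 i) (univ_mem _)
  choose T₁ C₁ c1 c2 using fun i => US.bound (m1 i)
  choose T C d1 d2 using fun i => US.bound (mul_mem (star_mem (m2 i)) (m2 i))
  have hC : 0 ≤ ∑ i, C i := Finset.sum_nonneg fun i _ => d1 i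
  refine ⟨Finset.univ.biUnion T, ε ^ 2 / (2 * (∑ i, C i + 1)), ∑ i, C₁ i, by positivity,
    Finset.sum_nonneg fun i _ => c1 i, fun π φ h1 h2 => ⟨fun x => (s x).2 π,
      fun x p hp => US.commute (hs x) π hp, fun i => ?_⟩⟩
  have e1 : (sw s (L i)).2 π = sw (fun x => (s x).2 π) (L i) :=
    map_sw ((Pi.evalMonoidHom _ π).comp (MonoidHom.snd _ _)) (fun _ => rfl) s _
  refine ⟨(sw s (L i)).2 π, ?_, (c2 i π).1.trans
    (Finset.single_le_sum (fun i _ => c1 i) (Finset.mem_univ i)), ?_⟩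
  · rw [e1]
    exact sw_mem (fun x => StarAlgebra.subset_adjoin ℂ _ (Set.mem_range_self x)) _
  have k1 := (d2 i π).2 φ _ h1 (by positivity) fun g hg =>
    h2 g (Finset.mem_biUnion.2 ⟨i, Finset.mem_univ i, hg⟩)
  have k2 : (star (sw s (L i) - univ A (FreeGroup.of i)) *
      (sw s (L i) - univ A (FreeGroup.of i))).1 (dl 1) 1 =
      ((‖(sw s (L i)).1 (dl 1) - dl (FreeGroup.of i)‖ ^ 2 : ℝ) : ℂ) := by
    rw [← inner_dl]
    change ⟪dl 1, (star ((sw s (L i)).1 - lam (FreeGroup.of i)))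
      (((sw s (L i)).1 - lam (FreeGroup.of i)) (dl 1))⟫_ℂ = _
    rw [inner_star_right, inner_self_eq_norm_sq_to_K, sub_apply, lam_dl,
      mul_one]
    simp
  rw [k2] at k1
  have k3 := (Complex.re_le_norm _).trans k1
  rw [Complex.sub_re, Complex.ofReal_re] at k3
  have k4 := pow_le_pow_left₀ (norm_nonneg _) (hL i) 2
  have k5 : C i ≤ ∑ i, C i := Finset.single_le_sum (fun i _ => d1 i) (Finset.mem_univ i)
  have k6 : C i * (ε ^ 2 / (2 * (∑ i, C i + 1))) ≤ ε ^ 2 / 2 := by
    rw [← mul_div_assoc, div_le_div_iff₀ (by positivity) two_pos]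
    nlinarith [sq_nonneg ε]
  change (φ ((star (sw s (L i) - univ A (FreeGroup.of i)) *
      (sw s (L i) - univ A (FreeGroup.of i))).2 π)).re ≤ _
  nlinarith [sq_nonneg ε]

end Vale.Agent.P085
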