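import Vale.Agent.P085.Patch
import Vale.Agent.P085.GrpGen

/-! Every finite subset of a corner is approximately generated by twelve self-adjoint elements. -/

open Filter Topology
open scoped InnerProductSpace ComplexOrder ComplexConjugate

namespace Vale.Agent.P085

variable {A : Type*} [CStarAlgebra A]

lemma CU.ext {e u : A} (he : IsStarProjection e) (h : CU e u) : u + (1 - e) ∈ unitary A := by
  have a1 := h.mul_e he
  have a2 := h.e_mul he
  have a3 := h.star'.mul_e he
  have a4 := h.star'.e_mul he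
  constructor
  · rw [star_add, star_sub, star_one, proj_star he]
    simp only [add_mul, mul_add, mul_sub, sub_mul, mul_one, one_mul, h.1, a2, a3, proj_mul he]
    abel
  · rw [star_add, star_sub, star_one, proj_star he]
    simp only [add_mul, mul_add, mul_sub, sub_mul, mul_one, one_mul, h.2, a1, a4, proj_mul he]
    abel

lemma sw_cons {B κ : Type*} [Monoid B] [Star B] (a : κ → B) (p : κ × Bool) (L : List (κ × Bool)) :
    sw a (p :: L) = cond p.2 (a p.1) (star (a p.1)) * sw a L := by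
  simp [sw]

lemma sw_ext {I : Type*} {e : A} (he : IsStarProjection e) {z : I → A} (hz : ∀ i, CU e (z i))
    (L : List (I × Bool)) : e * sw (fun i => z i + (1 - e)) L = e * sw z L := by
  induction L with
  | nil => rfl
  | cons p L ih =>
    have h : ∀ u, CU e u → ∀ y y', e * y = e * y' → e * ((u + (1 - e)) * y) = e * (u * y') := by
      intro u hu y y' h
      rw [← mul_assoc, mul_add, he.mul_one_sub_self, add_zero, hu.e_mul he, ← mul_assoc,
        hu.e_mul he, ← hu.mul_e he, mul_assoc, mul_assoc, h]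
    rw [sw_cons, sw_cons]
    obtain ⟨i, _ | _⟩ := p
    · have := h _ (hz i).star' _ _ ih
      simpa only [cond_false, star_add, star_sub, star_one, proj_star he] using this
    · exact h _ (hz i) _ _ ih

lemma adjoin_cut {κ : Type*} {e : A} (he : IsStarProjection e) {a : κ → A}
    (ha : ∀ x, Commute e (a x)) {N : StarSubalgebra ℂ A} (h1 : e ∈ N) (h2 : ∀ x, e * a x ∈ N)
    {y : A} (hy : y ∈ StarAlgebra.adjoin ℂ (Set.range a)) : Commute e y ∧ e * y ∈ N := by
  induction hy using StarAlgebra.adjoin_induction with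
  | mem x hx => obtain ⟨x, rfl⟩ := hx; exact ⟨ha x, h2 x⟩
  | algebraMap r =>
    rw [Algebra.algebraMap_eq_smul_one]
    exact ⟨(Commute.one_right e).smul_right r, by
      rw [mul_smul_comm, mul_one]; exact SMulMemClass.smul_mem r h1⟩
  | add x y _ _ hx hy => exact ⟨hx.1.add_right hy.1, by rw [mul_add]; exact add_mem hx.2 hy.2⟩
  | mul x y _ _ hx hy =>
    refine ⟨hx.1.mul_right hy.1, ?_⟩
    have : e * (x * y) = e * x * (e * y) := by
      rw [← mul_assoc (e * x), mul_assoc e x, ← hx.1.eq, ← mul_assoc e e, proj_mul he, mul_assoc]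
    rw [this]
    exact mul_mem hx.2 hy.2
  | star x _ hx =>
    have h3 := mul_of_star hx.1.eq
    rw [star_mul, proj_star he] at h3
    refine ⟨h3.symm, ?_⟩
    have := star_mem hx.2
    rwa [star_mul, proj_star he, h3] at this

variable [Tr A]

lemma three_gen {e : A} (he : IsStarProjection e) (he0 : 0 < sz e) {I : Type} [Finite I]
    {j : Fin 3 → I} (hj : Function.Injective j) {ε : ℝ} (hε : 0 < ε) :
    ∃ (K : ℕ) (δ R : ℝ), 0 < δ ∧ 0 ≤ R ∧ ∀ z : I → A, (∀ i, CU e (z i)) →
      (∀ L, L ≠ [] → FreeGroup.IsReduced L → L.length ≤ K → ‖τ (sw z L)‖ ≤ δ) →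
      ∃ a : Fin 3 → A, (∀ x, e * a x = a x ∧ a x * e = a x) ∧ ∀ i, ∃ y, ‖y‖ ≤ R ∧
        ‖v (y - z i)‖ ≤ ε ∧ ∀ N : StarSubalgebra ℂ A, e ∈ N → (∀ x, a x ∈ N) → y ∈ N := by
  classical
  obtain ⟨T, δ, R, hδ, hR, h⟩ := group_approx A hj hε
  refine ⟨T.sup fun g => g.toWord.length, δ * sz e, R, by positivity, hR, fun z hz hτ => ?_⟩
  let π : FreeGroup I →* unitary A := FreeGroup.lift fun i => ⟨z i + (1 - e), (hz i).ext he⟩
  have hπ : ∀ L, (π (FreeGroup.mk L) : A) = sw (fun i => z i + (1 - e)) L := fun L => by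
    have := hom_mk ((unitary A).subtype.comp π) (fun k => by
      change star (π k : A) = (π k⁻¹ : A)
      rw [map_inv, ← Unitary.star_eq_inv, Unitary.coe_star]) L
    simpa [π] using this
  have hse : ((sz e : ℝ) : ℂ) ≠ 0 := Complex.ofReal_ne_zero.2 he0.ne'
  obtain ⟨a, h1, h2⟩ := h π (((sz e : ℝ) : ℂ)⁻¹ • τ.comp (LinearMap.mulLeft ℂ e))
    (by simp [τ_proj he, inv_mul_cancel₀ hse]) fun g hg hg1 => by
      have k1 : g.toWord ≠ [] := fun h => hg1 (FreeGroup.toWord_eq_nil_iff.1 h)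
      have k2 := hτ g.toWord k1 FreeGroup.isReduced_toWord
        (Finset.le_sup (f := fun g : FreeGroup I => g.toWord.length) hg)
      have k3 : e * (π g : A) = sw z g.toWord := by
        conv_lhs => rw [← FreeGroup.mk_toWord (x := g), hπ, sw_ext he hz]
        obtain ⟨p, L, hL⟩ := List.exists_cons_of_ne_nil k1
        rw [hL, sw_cons, ← mul_assoc]
        obtain ⟨i, _ | _⟩ := p
        · rw [cond_false, (hz i).star'.e_mul he]
        · rw [cond_true, (hz i).e_mul he]
      simp only [LinearMap.smul_apply, LinearMap.comp_apply, LinearMap.mulLeft_apply, k3,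
        norm_smul, norm_inv, Complex.norm_real, Real.norm_of_nonneg he0.le]
      rw [inv_mul_le_iff₀ he0, mul_comm]
      exact k2
  have hc : ∀ g, Commute e (π g : A) := fun g => by
    rw [← FreeGroup.mk_toWord (x := g), hπ]
    refine Commute.list_prod_right _ _ fun y hy => ?_
    have : ∀ u, CU e u → Commute e (u + (1 - e)) := fun u hu =>
      Commute.add_right ((hu.e_mul he).trans (hu.mul_e he).symm)
        ((Commute.one_right e).sub_right (Commute.refl e))
    obtain ⟨⟨i, _ | _⟩, -, rfl⟩ := List.mem_map.1 hy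
    · simpa only [cond_false, star_add, star_sub, star_one, proj_star he] using
        this _ (hz i).star'
    · exact this _ (hz i)
  have ha := fun x => h1 x e hc
  refine ⟨fun x => e * a x, fun x => ⟨by rw [← mul_assoc, proj_mul he], by
    rw [mul_assoc, ← (ha x).eq, ← mul_assoc, proj_mul he]⟩, fun i => ?_⟩
  obtain ⟨y, y1, y2, y3⟩ := h2 i
  refine ⟨e * y, (norm_mul_le _ _).trans ((mul_le_of_le_one_left (norm_nonneg _)
    he.norm_le).trans y2), ?_, fun N k1 k2 => (adjoin_cut he ha k1 k2 y1).2⟩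
  have k1 : Commute e (y - π (FreeGroup.of i)) :=
    (adjoin_cut he ha (N := ⊤) trivial (fun _ => trivial) y1).1.sub_right (hc _)
  have k2 : e * (y - π (FreeGroup.of i)) = e * y - z i := by
    simp only [π, FreeGroup.lift_apply_of, mul_sub, mul_add, he.mul_one_sub_self, add_zero,
      (hz i).e_mul he]
  have k3 : τ (e * (star (y - π (FreeGroup.of i)) * (y - π (FreeGroup.of i)))) =
      ((‖v (e * y - z i)‖ ^ 2 : ℝ) : ℂ) := by
    rw [← τ_star_mul_self, ← k2, k1.eq, star_mul, proj_star he, mul_assoc e, τ_comm e,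
      τ_comm e, mul_assoc, mul_assoc, mul_assoc, proj_mul he]
  simp only [LinearMap.smul_apply, LinearMap.comp_apply, LinearMap.mulLeft_apply, k3,
    smul_eq_mul, ← Complex.ofReal_inv, ← Complex.ofReal_mul, Complex.ofReal_re] at y3
  rw [inv_mul_le_iff₀ he0] at y3
  rw [← sq_le_sq₀ (norm_nonneg _) hε.le]
  nlinarith [sz_le_one he, sq_nonneg ε]

variable [Two A]

lemma six_gen {e : A} (he : IsStarProjection e) (he0 : 0 < sz e) {I : Type} [Finite I]
    {j : Fin 3 → I} (hj : Function.Injective j) {t : I → A} (ht : ∀ i, CU e (t i)) {ε : ℝ}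
    (hε : 0 < ε) : ∃ a : Fin 3 × Bool → A, (∀ x, e * a x = a x ∧ a x * e = a x) ∧ ∀ i, ∃ y,
      ‖v (y - t i)‖ ≤ ε ∧ ∀ N : StarSubalgebra ℂ A, e ∈ N → (∀ x, a x ∈ N) → y ∈ N := by
  obtain ⟨K₁, δ₁, R₁, hδ₁, hR₁, h₁⟩ := three_gen he he0 hj (half_pos hε)
  obtain ⟨K₂, δ₂, R₂, hδ₂, -, h₂⟩ := three_gen he he0 hj (ε := ε / (2 * (R₁ + 1))) (by positivity)
  let D : Alph A (I × Bool) (Bool × I × Bool) :=
    { ι := fun x => (x.1, !x.2)
      col := fun p => p.2
      l := fun p => if p.1 = true ∧ p.2.2 = false then star (t p.2.1) else 1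
      r := fun p => if p.1 = true ∧ p.2.2 = true then t p.2.1 else 1
      inv := by simp
      ne := by simp [Prod.ext_iff]
      hl := fun p => by
        split_ifs
        · exact (ht _).star'.norm_le he
        · exact norm_one_le
      hr := fun p => by
        split_ifs
        · exact (ht _).norm_le he
        · exact norm_one_le }
  obtain ⟨Z, Z1, Z2, Z3⟩ := exists_free D (fun _ => rfl) he he0 (max K₁ K₂) (lt_min hδ₁ hδ₂)
  have key : ∀ (m : Bool) (L : List (I × Bool)), L ≠ [] → FreeGroup.IsReduced L →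
      L.length ≤ max K₁ K₂ → ‖τ (D.wd Z (L.map fun x => (m, x)))‖ ≤ min δ₁ δ₂ := by
    intro m L h0 hL hK
    refine Z3 _ (by simpa using h0) ?_ (by simpa using hK)
    rw [Alph.Red, List.isChain_map]
    refine List.IsChain.imp ?_ hL
    rintro ⟨i, b⟩ ⟨i', b'⟩ h h'
    simp only [D, Prod.ext_iff] at h h'
    have := h h'.1.symm
    rw [← this] at h'
    simp at h'
  obtain ⟨a₁, a1, a2⟩ := h₁ (fun i => Z (i, true)) (fun i => Z1 _) fun L h0 hL hK => by
    have := (key false L h0 hL (hK.trans (le_max_left _ _))).trans (min_le_left _ _)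
    have e1 : sw (fun i => Z (i, true)) L = D.wd Z (L.map fun x => (false, x)) := by
      rw [Alph.wd, sw, List.map_map]
      congr 2
      funext ⟨i, b⟩
      cases b <;> simp [D, Z2]
    rwa [e1]
  obtain ⟨a₂, b1, b2⟩ := h₂ (fun i => Z (i, true) * t i) (fun i => (Z1 _).mul he (ht i))
    fun L h0 hL hK => by
      have := (key true L h0 hL (hK.trans (le_max_right _ _))).trans (min_le_right _ _)
      have e1 : sw (fun i => Z (i, true) * t i) L = D.wd Z (L.map fun x => (true, x)) := by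
        rw [Alph.wd, sw, List.map_map]
        congr 2
        funext ⟨i, b⟩
        cases b <;> simp [D, Z2]
      rwa [e1]
  refine ⟨fun x => cond x.2 (a₁ x.1) (a₂ x.1), ?_, fun i => ?_⟩
  · rintro ⟨x, _ | _⟩
    · exact b1 x
    · exact a1 x
  obtain ⟨y₁, c1, c2, c3⟩ := a2 i
  obtain ⟨y₂, -, d2, d3⟩ := b2 i
  refine ⟨star y₁ * y₂, ?_, fun N k1 k2 => mul_mem (star_mem (c3 N k1 fun x => k2 (x, true)))
    (d3 N k1 fun x => k2 (x, false))⟩
  have e1 : star y₁ * y₂ - t i = star y₁ * (y₂ - Z (i, true) * t i) +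
      star (y₁ - Z (i, true)) * (Z (i, true) * t i) := by
    rw [star_sub, sub_mul, ← mul_assoc (star (Z _)), (Z1 _).1, (ht i).e_mul he, mul_sub]
    abel
  have n1 := norm_v_mul_le (star y₁) (y₂ - Z (i, true) * t i)
  have n2 := norm_v_mul_le_of_right (((Z1 (i, true)).mul he (ht i)).norm_le he)
    (star (y₁ - Z (i, true)))
  rw [norm_v_star] at n2
  rw [norm_star] at n1
  have n3 : ‖y₁‖ * ‖v (y₂ - Z (i, true) * t i)‖ ≤ R₁ * (ε / (2 * (R₁ + 1))) :=
    mul_le_mul c1 d2 (norm_nonneg _) hR₁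
  have n4 : R₁ * (ε / (2 * (R₁ + 1))) ≤ ε / 2 := by
    rw [← mul_div_assoc, div_le_div_iff₀ (by positivity) two_pos]
    nlinarith
  rw [e1, map_add]
  exact (norm_add_le _ _).trans (by linarith)

omit [Two A] in
lemma norm_v_rp (x : A) : ‖v (rp x)‖ ≤ ‖v x‖ := by
  rw [rp, map_smul, map_add, norm_smul]
  have := norm_add_le (v x) (v (star x))
  rw [norm_v_star] at this
  simp only [one_div, norm_inv, Complex.norm_ofNat]
  linarith

omit [Tr A] [Two A] in
lemma rp_mem {N : StarSubalgebra ℂ A} {x : A} (hx : x ∈ N) : rp x ∈ N :=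
  SMulMemClass.smul_mem _ (add_mem hx (star_mem hx))

omit [Tr A] [Two A] in
lemma rp_sub (x y : A) : rp (x - y) = rp x - rp y := by
  rw [rp, rp, rp, star_sub]; module

theorem approx_corner {e : A} (he : IsStarProjection e) (he0 : 0 < sz e) {S : Type} [Finite S]
    {x : S → A} (hx : ∀ i, ‖x i‖ ≤ 1) (h1 : ∀ i, e * x i = x i) (h2 : ∀ i, x i * e = x i) {ε : ℝ}
    (hε : 0 < ε) : ∃ s : Fin 12 → A, (∀ k, star (s k) = s k ∧ e * s k = s k) ∧ ∀ i, ∃ y,
      ‖v (y - x i)‖ ≤ ε ∧ ∀ N : StarSubalgebra ℂ A, e ∈ N → (∀ k, s k ∈ N) → y ∈ N := by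
  choose u hu hu' using fun i => exists_cu he (rp_star (x i)) ((norm_rp _).trans (hx i))
    (mul_rp (proj_star he) (h1 i) (h2 i))
  choose w hw hw' using fun i => exists_cu he (rp_star ((-Complex.I) • x i))
    ((norm_rp _).trans (by simpa [norm_smul] using hx i))
    (mul_rp (proj_star he) (by rw [mul_smul_comm, h1]) (by rw [smul_mul_assoc, h2]))
  obtain ⟨a, a1, a2⟩ := six_gen he he0 (I := Fin 3 ⊕ S ⊕ S) Sum.inl_injective
    (t := Sum.elim (fun _ => e) (Sum.elim u w)) (by
      rintro (i | i | i)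
      · exact CU.self he
      · exact hu i
      · exact hw i) (half_pos hε)
  let E : (Fin 3 × Bool) × Bool ≃ Fin 12 := Fintype.equivFinOfCardEq (by simp)
  let s : (Fin 3 × Bool) × Bool → A := fun p =>
    cond p.2 (rp (a p.1)) (rp ((-Complex.I) • a p.1))
  refine ⟨fun k => s (E.symm k), fun k => ?_, fun i => ?_⟩
  · beta_reduce
    generalize E.symm k = q
    obtain ⟨p, _ | _⟩ := q
    · exact ⟨rp_star _, mul_rp (proj_star he) (by rw [mul_smul_comm, (a1 p).1])
        (by rw [smul_mul_assoc, (a1 p).2])⟩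
    · exact ⟨rp_star _, mul_rp (proj_star he) (a1 p).1 (a1 p).2⟩
  obtain ⟨y₁, c1, c2⟩ := a2 (Sum.inr (Sum.inl i))
  obtain ⟨y₂, d1, d2⟩ := a2 (Sum.inr (Sum.inr i))
  refine ⟨rp y₁ + Complex.I • rp y₂, ?_, fun N k1 k2 => ?_⟩
  · have e1 : rp y₁ + Complex.I • rp y₂ - x i = rp (y₁ - u i) + Complex.I • rp (y₂ - w i) := by
      nth_rw 1 [rp_decomp (x i)]
      rw [hu', hw', rp_sub, rp_sub, smul_sub]
      abel
    rw [e1, map_add, map_smul]
    refine (norm_add_le _ _).trans ?_
    rw [norm_smul, Complex.norm_I, one_mul]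
    have n1 := (norm_v_rp _).trans c1
    have n2 := (norm_v_rp _).trans d1
    simp only [Sum.elim_inr, Sum.elim_inl] at n1 n2
    linarith
  · have k3 : ∀ p, a p ∈ N := fun p => by
      have m1 := k2 (E (p, true))
      have m2 := k2 (E (p, false))
      simp only [E.symm_apply_apply] at m1 m2
      rw [rp_decomp (a p)]
      exact add_mem m1 (SMulMemClass.smul_mem _ m2)
    exact add_mem (rp_mem (c2 N k1 k3)) (SMulMemClass.smul_mem _ (rp_mem (d2 N k1 k3)))

end Vale.Agent.P085
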