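import Mathlib

open Filter Topology
open scoped ComplexOrder

namespace Vale.Agent.P085

/-- `τ` is a faithful tracial state on the complex `*`-algebra `A`. -/
def IsFaithfulTracialState {A : Type*} [Ring A] [StarRing A] [Algebra ℂ A] (τ : A →ₗ[ℂ] ℂ) :
    Prop :=
  τ 1 = 1 ∧ (∀ x, 0 ≤ τ (star x * x)) ∧ (∀ x y, τ (x * y) = τ (y * x)) ∧
    ∀ x, τ (star x * x) = 0 → x = 0

/-- `A` has a faithful tracial state whose underlying function satisfies `P`. -/
def HasFaithfulTraceWith (A : Type*) [Ring A] [StarRing A] [Algebra ℂ A]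
    (P : (A → ℂ) → Prop) : Prop :=
  ∃ τ : A →ₗ[ℂ] ℂ, IsFaithfulTracialState τ ∧ P τ

section Subalgebra

variable {B : Type*} [Ring B] [StarRing B] [Algebra ℂ B] [StarModule ℂ B]

/-- The `*`-subalgebra `S` has a faithful tracial state whose underlying function satisfies `P`. -/
def SubHasFaithfulTraceWith (S : StarSubalgebra ℂ B) (P : (S → ℂ) → Prop) : Prop :=
  HasFaithfulTraceWith S P

/-- The `*`-subalgebra `S` is an infinite-dimensional vector space. -/
def IsInfiniteDimensional (S : StarSubalgebra ℂ B) : Prop :=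
  ¬ FiniteDimensional ℂ S

/-- The centre of the `*`-subalgebra `S` is `ℂ 1`. -/
def HasTrivialCentre (S : StarSubalgebra ℂ B) : Prop :=
  ∀ z ∈ S, (∀ x ∈ S, z * x = x * z) → ∃ c : ℂ, z = c • (1 : B)

/-- The intersection of all unital `*`-subalgebras that satisfy `P` and contain `x`. -/
def generatedWith (P : Set B → Prop) (x : B) : Set B :=
  {T | ∀ N : StarSubalgebra ℂ B, P (N : Set B) → x ∈ N → T ∈ N}

end Subalgebra

/-- `f` is continuous on the unit ball of `S` for the topology induced by `j`. -/
def ContinuousOnBall {X Y : Type*} [Norm X] [TopologicalSpace Y] (j : X → Y) (S : Set X)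
    (f : S → ℂ) : Prop :=
  ∀ (l : Filter S) (y : S), (∀ᶠ x : S in l, ‖x.1‖ ≤ 1) → ‖y.1‖ ≤ 1 →
    Tendsto (fun x : S => j x.1) l (𝓝 (j y.1)) → Tendsto f l (𝓝 (f y))

variable {H : Type*} [NormedAddCommGroup H] [InnerProductSpace ℂ H] [CompleteSpace H]

/-- A bounded operator, as a point of `B(H)` with the weak operator topology. -/
def toWOT (T : H →L[ℂ] H) : H →WOT[ℂ] H := ContinuousLinearMapWOT.ofCLM T

/-- A set of operators is closed in the weak operator topology. -/
def IsWOTClosed (N : Set (H →L[ℂ] H)) : Prop := IsClosed (toWOT '' N)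

/-- A function on a set `S` of operators is normal: it is continuous for the weak operator
topology on the unit ball of `S`. -/
def IsNormal (S : Set (H →L[ℂ] H)) (f : S → ℂ) : Prop := ContinuousOnBall toWOT S f

/-- `W*(x)`: the intersection of all weakly closed unital `*`-subalgebras of `B(H)` that
contain `x`. -/
def wStar (x : H →L[ℂ] H) : Set (H →L[ℂ] H) := generatedWith IsWOTClosed x

/-- `M = W*(x)` for some `x ∈ M`. -/
def SinglyGenerated (M : VonNeumannAlgebra H) : Prop :=
  ∃ x ∈ M, wStar x = (M : Set (H →L[ℂ] H))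

/-- A type II₁ factor: an infinite-dimensional factor with a faithful normal tracial state. -/
def IsTypeIIOneFactor (M : VonNeumannAlgebra H) : Prop :=
  HasTrivialCentre M.toStarSubalgebra ∧ IsInfiniteDimensional M.toStarSubalgebra ∧
    SubHasFaithfulTraceWith M.toStarSubalgebra (IsNormal (M : Set (H →L[ℂ] H)))

end Vale.Agent.P085
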