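import Vale.Agent.P085.Tower
import Vale.Agent.P085.Defs

/-! Passage to concrete von Neumann algebras. -/

open Filter Topology
open scoped InnerProductSpace ComplexOrder ComplexConjugate

namespace Vale.Agent.P085

section Abstract

variable {A : Type*} [CStarAlgebra A] [Tr A]

lemma twoClosed_of_bdd {N : StarSubalgebra ℂ A} (hN : IsClosed (N : Set A))
    (hb : ∀ (x : ℕ → A) y, (∀ n, x n ∈ N) → (∀ n, ‖x n‖ ≤ 1) → Conv x y → y ∈ N) :
    TwoClosed N := by
  intro x y hx hy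
  choose R r1 r2 r3 r4 r5 using fun n => exists_resolvent (x n)
  obtain ⟨S, s1, s2, s3, -, -⟩ := exists_resolvent y
  have r6 : ∀ n, ‖R n * x n‖ ≤ 1 := fun n => by
    have := r5 n
    rw [norm_smul] at this
    simp only [Complex.norm_ofNat] at this
    linarith [norm_nonneg (R n * x n)]
  have m1 : ∀ n, R n ∈ N := fun n => inv_mem_of_closed hN
    (add_mem (one_mem _) (mul_mem (hx n) (star_mem (hx n)))) (r2 n) (r3 n)
  have c0 : Conv (fun n => y - x n) 0 := by simpa using (Conv.const y).sub hy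
  have c1 : Conv R S := by
    have a1 : Conv (fun n => R n * ((y - x n) * (star y * S))) 0 :=
      Conv.of_le (c0.mul_right (star y * S)) fun n => by
        rw [sub_zero, zero_mul, sub_zero]; exact norm_v_mul_le_of_left (r4 n) _
    have a2 : Conv (fun n => R n * x n * (star (y - x n) * S)) 0 :=
      Conv.of_le (c0.star.mul_right S) fun n => by
        rw [sub_zero, star_zero, zero_mul, sub_zero]; exact norm_v_mul_le_of_left (r6 n) _
    have a3 := (a1.add a2).add (Conv.const S)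
    rw [zero_add, zero_add] at a3
    refine a3.congr fun n => ?_
    calc R n * ((y - x n) * (star y * S)) + R n * x n * (star (y - x n) * S) + S
        = R n * ((1 + y * star y) * S) - R n * (1 + x n * star (x n)) * S + S := by
          rw [star_sub]; noncomm_ring
      _ = R n := by rw [s3, r2, mul_one, one_mul, sub_add_cancel]
  have m2 : S ∈ N := hb R S m1 r4 c1
  have m3 : S * y ∈ N := hb _ _ (fun n => mul_mem (m1 n) (hx n)) r6 (c1.mul hy r4)
  have m4 : 1 + y * star y ∈ N := inv_mem_of_closed hN m2 s3 s2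
  have := mul_mem m4 m3
  rwa [← mul_assoc, s3, one_mul] at this

end Abstract

variable {H : Type*} [NormedAddCommGroup H] [InnerProductSpace ℂ H] [CompleteSpace H]

/-- Convergence in the weak operator topology. -/
def WT {ι : Type*} (l : Filter ι) (x : ι → H →L[ℂ] H) (y : H →L[ℂ] H) : Prop :=
  ∀ ξ η : H, Tendsto (fun i => ⟪η, x i ξ⟫_ℂ) l (𝓝 ⟪η, y ξ⟫_ℂ)

lemma wt_iff {ι : Type*} {l : Filter ι} {x : ι → H →L[ℂ] H} {y : H →L[ℂ] H} :
    Tendsto (fun i => toWOT (x i)) l (𝓝 (toWOT y)) ↔ WT l x y :=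
  ContinuousLinearMapWOT.tendsto_iff_forall_inner_apply_tendsto

lemma IsWOTClosed.mem {N : StarSubalgebra ℂ (H →L[ℂ] H)} (hN : IsWOTClosed (N : Set (H →L[ℂ] H))) {ι : Type*}
    {l : Filter ι} [l.NeBot] {x : ι → H →L[ℂ] H} {y : H →L[ℂ] H} (hx : ∀ i, x i ∈ N)
    (h : WT l x y) : y ∈ N := by
  obtain ⟨z, hz, e⟩ := IsClosed.mem_of_tendsto hN (wt_iff.2 h)
    (Eventually.of_forall fun i => ⟨x i, hx i, rfl⟩)
  rwa [← ContinuousLinearMapWOT.ofCLM_injective e]

lemma IsWOTClosed.isClosed {N : StarSubalgebra ℂ (H →L[ℂ] H)} (hN : IsWOTClosed (N : Set (H →L[ℂ] H))) :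
    IsClosed (N : Set (H →L[ℂ] H)) := by
  have := IsClosed.preimage ContinuousLinearMapWOT.continuous_ofCLM hN
  rwa [show (toWOT : (H →L[ℂ] H) → _) = ContinuousLinearMapWOT.ofCLM from rfl,
    Set.preimage_image_eq _ ContinuousLinearMapWOT.ofCLM_injective] at this

lemma WT.mul_left {ι : Type*} {l : Filter ι} {x : ι → H →L[ℂ] H} {y : H →L[ℂ] H} (h : WT l x y)
    (z : H →L[ℂ] H) : WT l (fun i => z * x i) (z * y) := fun ξ η => by
  have := h ξ (ContinuousLinearMap.adjoint z η)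
  simp only [ContinuousLinearMap.adjoint_inner_left] at this
  exact this

lemma isWOTClosed_vn (M : VonNeumannAlgebra H) :
    IsWOTClosed (M.toStarSubalgebra : Set (H →L[ℂ] H)) := by
  refine isClosed_iff_ultrafilter.2 fun T U hU hmem => ?_
  refine ⟨T.toCLM, ?_, rfl⟩
  rw [VonNeumannAlgebra.coe_toStarSubalgebra, ← M.centralizer_centralizer]
  intro S hS
  have h1 : WT (U : Filter _) (fun T' : H →WOT[ℂ] H => T'.toCLM) T.toCLM := wt_iff.1 hU
  ext ξ
  refine ext_inner_left ℂ fun η => ?_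
  refine tendsto_nhds_unique_of_eventuallyEq (h1.mul_left S ξ η) (h1 (S ξ) η) ?_
  filter_upwards [hmem]
  rintro _ ⟨T', hT', rfl⟩
  have := hS T' hT'
  exact congrArg (fun X : H →L[ℂ] H => ⟪η, X ξ⟫_ℂ) this.symm

lemma exists_wt {ι : Type*} (U : Ultrafilter ι) (x : ι → H →L[ℂ] H) (hx : ∀ i, ‖x i‖ ≤ 1) :
    ∃ y, ‖y‖ ≤ 1 ∧ WT (U : Filter ι) x y := by
  have hb : ∀ i ξ η, ‖⟪x i ξ, η⟫_ℂ‖ ≤ 1 * ‖ξ‖ * ‖η‖ := fun i ξ η =>
    (norm_inner_le_norm _ _).trans (mul_le_mul_of_nonneg_right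
      (((x i).le_opNorm ξ).trans (mul_le_mul_of_nonneg_right (hx i) (norm_nonneg _)))
      (norm_nonneg _))
  have hl : ∀ ξ η : H, ∃ c, Tendsto (fun i => ⟪x i ξ, η⟫_ℂ) U (𝓝 c) := fun ξ η => by
    obtain ⟨c, -, hc⟩ := (isCompact_closedBall (0 : ℂ) (1 * ‖ξ‖ * ‖η‖)).ultrafilter_le_nhds
      (U.map fun i => ⟪x i ξ, η⟫_ℂ) (by
        rw [le_principal_iff, Ultrafilter.coe_map, mem_map]
        exact Eventually.of_forall fun i => by simpa using hb i ξ η)
    exact ⟨c, hc⟩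
  choose b hb' using hl
  have bb : ∀ ξ η, ‖b ξ η‖ ≤ 1 * ‖ξ‖ * ‖η‖ := fun ξ η =>
    le_of_tendsto' (hb' ξ η).norm fun i => hb i ξ η
  let B : H →ₗ⋆[ℂ] H →ₗ[ℂ] ℂ := LinearMap.mk₂'ₛₗ (starRingEnd ℂ) (RingHom.id ℂ) b
    (fun ξ ξ' η => tendsto_nhds_unique (hb' _ _) (by
      simpa only [map_add, inner_add_left] using (hb' ξ η).add (hb' ξ' η)))
    (fun c ξ η => tendsto_nhds_unique (hb' _ _) (by
      simpa only [map_smul, inner_smul_left, smul_eq_mul] using (hb' ξ η).const_mul (conj c)))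
    (fun ξ η η' => tendsto_nhds_unique (hb' _ _) (by
      simpa only [inner_add_right] using (hb' ξ η).add (hb' ξ η')))
    (fun c ξ η => tendsto_nhds_unique (hb' _ _) (by
      simpa only [inner_smul_right, smul_eq_mul, RingHom.id_apply] using (hb' ξ η).const_mul c))
  let y := InnerProductSpace.continuousLinearMapOfBilin (B.mkContinuous₂ 1 bb)
  have hy : ∀ ξ η, ⟪y ξ, η⟫_ℂ = b ξ η := fun ξ η =>
    InnerProductSpace.continuousLinearMapOfBilin_apply _ ξ η
  refine ⟨y, y.opNorm_le_bound zero_le_one fun ξ => ?_, fun ξ η => ?_⟩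
  · have := bb ξ (y ξ)
    rw [← hy, inner_self_eq_norm_sq_to_K, norm_pow, RCLike.norm_ofReal, abs_norm, sq] at this
    rcases (norm_nonneg (y ξ)).eq_or_lt with h | h
    · rw [← h]; positivity
    · exact le_of_mul_le_mul_right this h
  · have := (hb' ξ η).star
    rw [← hy] at this
    simpa only [← starRingEnd_apply, inner_conj_symm] using this

lemma exists_seq [TopologicalSpace.SeparableSpace H] (M : StarSubalgebra ℂ (H →L[ℂ] H)) :
    ∃ x : ℕ → M, (∀ n, ‖x n‖ ≤ 1) ∧ ∀ N : StarSubalgebra ℂ (H →L[ℂ] H), IsWOTClosed (N : Set (H →L[ℂ] H)) →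
      (∀ n, (x n : H →L[ℂ] H) ∈ N) → M ≤ N := by
  have : SecondCountableTopology H := UniformSpace.secondCountable_of_separable H
  let Φ : M → ℕ → H := fun T k => (T : H →L[ℂ] H) (TopologicalSpace.denseSeq H k)
  obtain ⟨t, t1, t2, t3⟩ := (TopologicalSpace.IsSeparable.of_separableSpace
    (Φ '' {T | ‖T‖ ≤ 1})).exists_countable_dense_subset
  have hne : t.Nonempty := closure_nonempty_iff.1 ⟨_, t3 ⟨0, by simp, rfl⟩⟩
  obtain ⟨g, rfl⟩ := t2.exists_eq_range hne
  choose x x1 x2 using fun n => t1 (Set.mem_range_self n)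
  refine ⟨x, x1, fun N hN hx => ?_⟩
  have key : ∀ T : M, ‖T‖ ≤ 1 → (T : H →L[ℂ] H) ∈ N := by
    intro T hT
    obtain ⟨u, u1, u2⟩ := mem_closure_iff_seq_limit.1 (t3 ⟨T, hT, rfl⟩)
    choose n hn using u1
    refine hN.mem (l := atTop) (fun j => hx (n j)) fun ξ η => ?_
    refine Tendsto.inner tendsto_const_nhds ?_
    rw [Metric.tendsto_atTop]
    intro ε hε
    obtain ⟨k, hk⟩ := (TopologicalSpace.denseRange_denseSeq H).exists_dist_lt ξ
      (show 0 < ε / 3 by positivity)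
    obtain ⟨J, hJ⟩ := Metric.tendsto_atTop.1 (tendsto_pi_nhds.1 u2 k) (ε / 3) (by positivity)
    refine ⟨J, fun j hj => ?_⟩
    have a1 := hJ j hj
    rw [← hn, ← x2] at a1
    have a2 : ∀ S : M, ‖S‖ ≤ 1 → dist ((S : H →L[ℂ] H) ξ) (Φ S k) < ε / 3 := fun S hS =>
      (((S : H →L[ℂ] H).dist_le_opNorm _ _).trans
        (mul_le_of_le_one_left dist_nonneg hS)).trans_lt hk
    linarith [dist_triangle4 ((x (n j) : H →L[ℂ] H) ξ) (Φ (x (n j)) k) (Φ T k)
      ((T : H →L[ℂ] H) ξ), a2 _ (x1 (n j)), a2 T hT, dist_comm (Φ T k) ((T : H →L[ℂ] H) ξ)]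
  intro T hT
  have hpos : 0 < ‖T‖ + 1 := by positivity
  have := SMulMemClass.smul_mem ((‖T‖ + 1 : ℝ) : ℂ)
    (key ((((‖T‖ + 1)⁻¹ : ℝ) : ℂ) • ⟨T, hT⟩) (by
      rw [norm_smul, Complex.norm_real, Real.norm_of_nonneg (by positivity), inv_mul_le_iff₀ hpos]
      exact (le_add_of_nonneg_right zero_le_one).trans_eq (mul_one _).symm))
  change _ • _ • T ∈ N at this
  rwa [smul_smul, ← Complex.ofReal_mul, mul_inv_cancel₀ hpos.ne', Complex.ofReal_one,
    one_smul] at this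

lemma weak_limit {M : VonNeumannAlgebra H} {τ : M.toStarSubalgebra →ₗ[ℂ] ℂ}
    (hτ : IsNormal (M : Set (H →L[ℂ] H)) τ) (x : ℕ → M.toStarSubalgebra) (hx : ∀ n, ‖x n‖ ≤ 1) :
    ∃ y : M.toStarSubalgebra, ‖y‖ ≤ 1 ∧
      (∀ z, Tendsto (fun n => τ (z * x n)) (hyperfilter ℕ) (𝓝 (τ (z * y)))) ∧
      ∀ N : StarSubalgebra ℂ (H →L[ℂ] H), IsWOTClosed (N : Set (H →L[ℂ] H)) → (∀ n, (x n : H →L[ℂ] H) ∈ N) →
        (y : H →L[ℂ] H) ∈ N := by
  obtain ⟨y, y1, y2⟩ := exists_wt (hyperfilter ℕ) (fun n => (x n : H →L[ℂ] H)) hx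
  have hy : y ∈ M.toStarSubalgebra := (isWOTClosed_vn M).mem (fun n => (x n).2) y2
  have key : ∀ z : M.toStarSubalgebra, ‖z‖ ≤ 1 →
      Tendsto (fun n => τ (z * x n)) (hyperfilter ℕ) (𝓝 (τ (z * ⟨y, hy⟩))) := by
    intro z hz
    refine (hτ (map (fun n => z * x n) (hyperfilter ℕ)) _ ?_ ?_ ?_).comp tendsto_map
    · exact eventually_map.2 (Eventually.of_forall fun n =>
        (norm_mul_le _ _).trans (mul_le_one₀ hz (norm_nonneg _) (hx n)))
    · exact (norm_mul_le _ _).trans (mul_le_one₀ hz (norm_nonneg _) y1)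
    · exact tendsto_map'_iff.2 (wt_iff.2 (y2.mul_left z))
  refine ⟨⟨y, hy⟩, y1, fun z => ?_, fun N hN h => hN.mem h y2⟩
  have hpos : 0 < ‖z‖ + 1 := by positivity
  have := (key ((((‖z‖ + 1)⁻¹ : ℝ) : ℂ) • z) (by
    rw [norm_smul, Complex.norm_real, Real.norm_of_nonneg (by positivity), inv_mul_le_iff₀ hpos]
    linarith)).const_smul ((‖z‖ + 1 : ℝ) : ℂ)
  simpa only [smul_mul_assoc, map_smul, smul_smul, ← Complex.ofReal_mul,
    mul_inv_cancel₀ hpos.ne', Complex.ofReal_one, one_smul] using this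

theorem singlyGenerated [TopologicalSpace.SeparableSpace H] (M : VonNeumannAlgebra H)
    (hM : IsTypeIIOneFactor M) : SinglyGenerated M := by
  obtain ⟨hfac, hinf, τ₀, ⟨t1, t2, t3, t4⟩, hτ⟩ := hM
  have hcl : IsClosed (M.toStarSubalgebra : Set (H →L[ℂ] H)) := (isWOTClosed_vn M).isClosed
  let _ : Tr M.toStarSubalgebra := ⟨τ₀, t3, t2, t1, t4⟩
  have hU : (hyperfilter ℕ : Filter ℕ) ≤ atTop := Nat.hyperfilter_le_atTop
  have _ : Two M.toStarSubalgebra := by
    refine ⟨fun x hx hc => ?_, fun z hz => ?_, hinf⟩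
    · obtain ⟨y, y1, y2, -⟩ := weak_limit hτ x hx
      refine ⟨y, y1, Metric.tendsto_atTop.2 fun ε hε => ?_⟩
      obtain ⟨K, hK⟩ := Metric.cauchySeq_iff.1 hc (ε / 2) (by positivity)
      refine ⟨K, fun n hn => ?_⟩
      have a1 : Tendsto (fun k => ‖τ (star (x n - y) * (x n - x k))‖) (hyperfilter ℕ)
          (𝓝 ‖τ (star (x n - y) * (x n - y))‖) := by
        simp only [mul_sub, map_sub]
        exact ((y2 (star (x n - y))).const_sub _).norm
      have a2 : ‖τ (star (x n - y) * (x n - y))‖ ≤ ‖v (x n - y)‖ * (ε / 2) := by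
        refine le_of_tendsto a1 (hU ?_)
        filter_upwards [eventually_ge_atTop K] with k hk
        refine (norm_τ_mul_le _ _).trans ?_
        rw [norm_v_star, map_sub v (x n) (x k), ← dist_eq_norm]
        exact mul_le_mul_of_nonneg_left (hK n hn k hk).le (norm_nonneg _)
      rw [τ_star_mul_self, Complex.norm_real, Real.norm_of_nonneg (sq_nonneg _)] at a2
      rw [Real.dist_eq, sub_zero, abs_norm]
      nlinarith [norm_nonneg (v (x n - y))]
    · obtain ⟨c, hc⟩ := hfac z z.2 fun x hx => congrArg Subtype.val (hz ⟨x, hx⟩)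
      exact ⟨c, Subtype.ext hc⟩
  obtain ⟨x, x1, x2⟩ := exists_seq M.toStarSubalgebra
  obtain ⟨z, hz⟩ := abstract_gen x x1
  refine ⟨z, z.2, Set.Subset.antisymm (fun T hT => hT _ (isWOTClosed_vn M) z.2)
    fun T hT N hN hzN => ?_⟩
  refine x2 N hN (hz (N.comap M.toStarSubalgebra.subtype) (twoClosed_of_bdd
    (hN.isClosed.preimage continuous_subtype_val) fun w y w1 w2 w3 => ?_) hzN) hT
  obtain ⟨y', -, y2, y3⟩ := weak_limit hτ w w2
  have e : y = y' := by
    rw [← sub_eq_zero]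
    apply t4
    rw [mul_sub, map_sub, sub_eq_zero]
    exact tendsto_nhds_unique ((w3.mul_left _).tendsto_τ.mono_left hU) (y2 _)
  rw [e]
  exact y3 N hN w1

end Vale.Agent.P085
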