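import Vale.Agent.P085.Quant

/-! Incremental patching: approximately free families of unitaries in a corner. -/

open Filter Topology
open scoped InnerProductSpace ComplexOrder ComplexConjugate

namespace Vale.Agent.P085

lemma tele {A E Λ : Type*} [Ring A] [Algebra ℂ A] [NormedAddCommGroup E] [NormedSpace ℂ E]
    (F G : Λ → A) (L : List Λ) : ∀ (φ : A →ₗ[ℂ] E) (β : ℝ),
    (∀ L₁ a L₂, L = L₁ ++ a :: L₂ →
      ‖φ ((L₁.map F).prod * (G a - F a) * (L₂.map G).prod)‖ ≤ β) →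
    ‖φ (L.map G).prod - φ (L.map F).prod‖ ≤ L.length * β := by
  induction L with
  | nil => intro φ β _; simp
  | cons a L ih =>
    intro φ β h
    have h1 := h [] a L rfl
    have h2 := ih (φ.comp (LinearMap.mulLeft ℂ (F a))) β fun L₁ b L₂ hL => by
      have := h (a :: L₁) b L₂ (by rw [hL]; rfl)
      simpa only [List.map_cons, List.prod_cons, LinearMap.comp_apply, LinearMap.mulLeft_apply,
        mul_assoc] using this
    simp only [List.map_nil, List.prod_nil, one_mul, LinearMap.comp_apply,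
      LinearMap.mulLeft_apply] at h1 h2
    simp only [List.map_cons, List.prod_cons, List.length_cons, Nat.cast_add, Nat.cast_one]
    have e : φ (G a * (L.map G).prod) - φ (F a * (L.map F).prod) =
        φ ((G a - F a) * (L.map G).prod) +
          (φ (F a * (L.map G).prod) - φ (F a * (L.map F).prod)) := by
      rw [sub_mul, map_sub]; abel
    rw [e]
    linarith [norm_add_le (φ ((G a - F a) * (L.map G).prod))
      (φ (F a * (L.map G).prod) - φ (F a * (L.map F).prod))]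

variable {A : Type*} [CStarAlgebra A]

lemma norm_prod_le {Λ : Type*} {F : Λ → A} (hF : ∀ a, ‖F a‖ ≤ 1) (L : List Λ) :
    ‖(L.map F).prod‖ ≤ 1 := by
  induction L with
  | nil => simpa using norm_one_le
  | cons a L ih => rw [List.map_cons, List.prod_cons]; exact norm_mul_le_one (hF a) ih

/-- Letters: a colour and two coefficients of norm at most one. -/
structure Alph (A : Type*) [CStarAlgebra A] (X Λ : Type*) where
  ι : X → X
  col : Λ → X
  l : Λ → A
  r : Λ → A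
  inv : ∀ x, ι (ι x) = x
  ne : ∀ x, x ≠ ι x
  hl : ∀ a, ‖l a‖ ≤ 1
  hr : ∀ a, ‖r a‖ ≤ 1

namespace Alph

variable {X Λ : Type*} (D : Alph A X Λ)

/-- The value of a word. -/
def wd (V : X → A) (L : List Λ) : A := (L.map fun a => D.l a * V (D.col a) * D.r a).prod

/-- The value of a word between two letters. -/
def mid (V : X → A) (a : Λ) (L : List Λ) (b : Λ) : A := D.r a * D.wd V L * D.l b

/-- Reduced words. -/
def Red (L : List Λ) : Prop := L.IsChain fun a b => D.col b ≠ D.ι (D.col a)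

lemma wd_append (V : X → A) (L L' : List Λ) : D.wd V (L ++ L') = D.wd V L * D.wd V L' := by
  simp [wd]

lemma norm_wd {V : X → A} (hV : ∀ x, ‖V x‖ ≤ 1) (L : List Λ) : ‖D.wd V L‖ ≤ 1 :=
  norm_prod_le (fun a => norm_mul_le_one (norm_mul_le_one (D.hl a) (hV _)) (D.hr a)) L

lemma norm_mid {V : X → A} (hV : ∀ x, ‖V x‖ ≤ 1) (a : Λ) (L : List Λ) (b : Λ) :
    ‖D.mid V a L b‖ ≤ 1 := norm_mul_le_one (norm_mul_le_one (D.hr a) (D.norm_wd hV L)) (D.hl b)

variable [Tr A]

lemma tele_wd (V W : X → A) (P Q : A) (L : List Λ) (β : ℝ)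
    (h : ∀ L₁ a L₂, L = L₁ ++ a :: L₂ → ‖τ (P * D.wd V L₁ * D.l a * W (D.col a) * D.r a *
      D.wd (V + W) L₂ * Q)‖ ≤ β) :
    ‖τ (P * D.wd (V + W) L * Q) - τ (P * D.wd V L * Q)‖ ≤ L.length * β :=
  tele _ _ L (τ.comp ((LinearMap.mulRight ℂ Q).comp (LinearMap.mulLeft ℂ P))) β
    fun L₁ a L₂ hL => by
      have := h L₁ a L₂ hL
      simp only [Pi.add_apply, mul_add, add_mul, add_sub_cancel_left, LinearMap.comp_apply,
        LinearMap.mulLeft_apply, LinearMap.mulRight_apply]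
      simpa only [wd, mul_assoc, Pi.add_apply, mul_add, add_mul] using this

lemma expand {V U : X → A} {e₀ : A} (he₀ : IsStarProjection e₀) (hV : ∀ x, ‖V x‖ ≤ 1)
    (hU : ∀ x, star (U x) * U x = e₀) {W : X → A} (hW : ∀ x, W x = U (D.ι x) * star (U x))
    (hV' : ∀ x, ‖(V + W) x‖ ≤ 1) {P Q : A} (hP : ‖P‖ ≤ 1) (hQ : ‖Q‖ ≤ 1) (L : List Λ)
    {β₁ β₂ : ℝ} (hβ : 0 ≤ β₂)
    (h1 : ∀ L₁ a L₂, L = L₁ ++ a :: L₂ → ‖τ (star (U (D.col a)) *
      (D.r a * D.wd V L₂ * Q * P * D.wd V L₁ * D.l a) * U (D.ι (D.col a)))‖ ≤ β₁)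
    (h2 : ∀ L₁ a L₃ b L₄, L = L₁ ++ a :: (L₃ ++ b :: L₄) →
      ‖v (star (U (D.col a)) * D.mid V a L₃ b * U (D.ι (D.col b)))‖ ≤ β₂ * ‖v e₀‖) :
    ‖τ (P * D.wd (V + W) L * Q) - τ (P * D.wd V L * Q)‖ ≤
      L.length * (β₁ + L.length * (β₂ * sz e₀)) := by
  have hUn : ∀ x, ‖U x‖ ≤ 1 := fun x => norm_le_one_of_proj (by rw [hU]; exact he₀)
  have hUv : ∀ x, ‖v (U x)‖ = ‖v e₀‖ := fun x => by
    rw [← sq_eq_sq₀ (norm_nonneg _) (norm_nonneg _), norm_v_of (hU x), proj_sq he₀]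
  refine D.tele_wd V W P Q L _ fun L₁ a L₂ hL => ?_
  have k1 := D.tele_wd V W (P * D.wd V L₁ * D.l a * W (D.col a) * D.r a) Q L₂ (β₂ * sz e₀)
    fun L₃ b L₄ hL' => by
      have e : τ (P * D.wd V L₁ * D.l a * W (D.col a) * D.r a * D.wd V L₃ * D.l b * W (D.col b) *
          D.r b * D.wd (V + W) L₄ * Q) =
          τ ((star (U (D.col a)) * D.mid V a L₃ b * U (D.ι (D.col b))) *
            ((star (U (D.col b)) * D.r b * D.wd (V + W) L₄ * Q * P * D.wd V L₁ * D.l a) *
              U (D.ι (D.col a)))) := by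
        have := τ_comm (P * D.wd V L₁ * D.l a * U (D.ι (D.col a)))
          (star (U (D.col a)) * D.mid V a L₃ b * U (D.ι (D.col b)) * star (U (D.col b)) * D.r b *
            D.wd (V + W) L₄ * Q)
        simpa only [hW, mid, mul_assoc] using this
      rw [e, ← proj_sq he₀, sq, ← mul_assoc β₂]
      refine (norm_τ_mul_le _ _).trans (mul_le_mul (h2 L₁ a L₃ b L₄ (by rw [hL, hL'])) ?_
        (norm_nonneg _) (by positivity))
      rw [← hUv (D.ι (D.col a))]
      refine norm_v_mul_le_of_left ?_ _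
      exact norm_mul_le_one (norm_mul_le_one (norm_mul_le_one (norm_mul_le_one (norm_mul_le_one
        (norm_mul_le_one (by rw [norm_star]; exact hUn _) (D.hr b)) (D.norm_wd hV' _)) hQ) hP)
        (D.norm_wd hV _)) (D.hl a)
  have k2 : τ (P * D.wd V L₁ * D.l a * W (D.col a) * D.r a * D.wd V L₂ * Q) =
      τ (star (U (D.col a)) * (D.r a * D.wd V L₂ * Q * P * D.wd V L₁ * D.l a) *
        U (D.ι (D.col a))) := by
    have := τ_comm (P * D.wd V L₁ * D.l a * U (D.ι (D.col a)))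
      (star (U (D.col a)) * D.r a * D.wd V L₂ * Q)
    simpa only [hW, mul_assoc] using this
  have k3 := h1 L₁ a L₂ hL
  rw [← k2] at k3
  have k4 : (L₂.length : ℝ) ≤ L.length := by
    rw [hL]; simp only [List.length_append, List.length_cons]; push_cast; linarith
  have k5 := mul_le_mul_of_nonneg_right k4 (mul_nonneg hβ (sz_nonneg he₀))
  linarith [norm_le_norm_add_norm_sub' (τ (P * D.wd V L₁ * D.l a * W (D.col a) * D.r a *
    D.wd (V + W) L₂ * Q)) (τ (P * D.wd V L₁ * D.l a * W (D.col a) * D.r a * D.wd V L₂ * Q))]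

/-- The state of the patching process. -/
structure St (e : A) (V f : X → A) (s : ℝ) : Prop where
  hstar : ∀ x, V (D.ι x) = star (V x)
  hsum : ∀ x, star (V x) * V x + f x = e
  hf : ∀ x, IsStarProjection (f x)
  hV : ∀ x, V x * f x = 0
  hs : ∀ x, sz (f x) = s

variable {D}

lemma St.norm_le {e : A} {V f : X → A} {s : ℝ} (h : D.St e V f s) (he : IsStarProjection e)
    (x : X) : ‖V x‖ ≤ 1 := by
  refine norm_le_one_of_proj ?_
  rw [eq_sub_of_add_eq (h.hsum x)]
  refine (h.hf x).sub_of_mul_eq_right he ?_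
  rw [← h.hsum x, add_mul, mul_assoc, h.hV, mul_zero, zero_add, proj_mul (h.hf x)]

lemma St.step {e e₀ : A} {V f U : X → A} {s : ℝ} (h : D.St e V f s) (he₀ : IsStarProjection e₀)
    (hU : ∀ x, star (U x) * U x = e₀) (hfU : ∀ x, f x * U x = U x) :
    D.St e (V + fun x => U (D.ι x) * star (U x)) (fun x => f x - U x * star (U x))
      (s - sz e₀) := by
  have p1 : ∀ x, IsStarProjection (star (U x) * U x) := fun x => by rw [hU]; exact he₀
  have p2 : ∀ x, U x * e₀ = U x := fun x => by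
    have := pi_mul (p1 x)
    rwa [hU] at this
  have p3 : ∀ x, V x * U x = 0 := fun x => by rw [← hfU, ← mul_assoc, h.hV, zero_mul]
  have p4 : ∀ x, star (V x) * U (D.ι x) = 0 := fun x => by rw [← h.hstar, p3]
  have p5 : ∀ x, star (U x) * f x = star (U x) := fun x => by
    have := mul_of_star (hfU x)
    rwa [proj_star (h.hf x)] at this
  refine ⟨fun x => ?_, fun x => ?_, fun x => ?_, fun x => ?_, fun x => ?_⟩
  · simp only [Pi.add_apply, D.inv, h.hstar, star_add, star_mul, star_star]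
  · have p6 := mul_of_star (p4 x)
    rw [star_star, star_zero] at p6
    simp only [Pi.add_apply, star_add, star_mul, star_star, add_mul, mul_add]
    rw [← mul_assoc (star (V x)), p4, zero_mul, mul_assoc (U x), p6, mul_zero, mul_assoc (U x),
      ← mul_assoc (star (U (D.ι x))), hU, ← mul_assoc, p2, ← h.hsum x]
    abel
  · exact (proj_mul_star (p1 x)).sub_of_mul_eq_right (h.hf x) (by rw [← mul_assoc, hfU])
  · simp only [Pi.add_apply, add_mul, mul_sub]
    rw [h.hV, ← mul_assoc (V x), p3, zero_mul, mul_assoc, p5, mul_assoc,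
      ← mul_assoc (star (U x)), hU, ← mul_assoc, p2]
    abel
  · rw [sz_sub, h.hs, sz_comm, hU]

variable (D)

/-- Bound on the traces of words cut by the remaining projections. -/
def Bd1 (K : ℕ) (V f : X → A) (c : ℕ → ℝ) : Prop :=
  ∀ a b L x, L ≠ [] → D.Red L → L.length ≤ K → ‖τ (D.mid V a L b * f x)‖ ≤ c L.length

/-- Bound on the traces of words. -/
def Bd2 (K : ℕ) (V : X → A) (c : ℝ) : Prop :=
  ∀ L, L ≠ [] → D.Red L → L.length ≤ K → ‖τ (D.wd V L)‖ ≤ c

/-- Quantization of all short words. -/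
structure Qu (K : ℕ) (η : ℝ) (e₀ : A) (V f U : X → A) : Prop where
  h0 : ∀ x, star (U x) * U x = e₀
  hf : ∀ x, f x * U x = U x
  h1 : ∀ a L b x, L.length ≤ K → ‖v (star (U x) * D.mid V a L b * U x -
    (τ (D.mid V a L b * f x) / (sz (f x) : ℝ)) • e₀)‖ ≤ η * ‖v e₀‖
  h2 : ∀ a L b x x', L.length ≤ K → x ≠ x' →
    ‖v (star (U x) * D.mid V a L b * U x')‖ ≤ η * ‖v e₀‖
  h3 : ∀ a L b y a' L' b' x x', L.length ≤ K → L'.length ≤ K → x ≠ x' →
    ‖v (star (U x) * (D.mid V a L b * f y * D.mid V a' L' b') * U x')‖ ≤ η * ‖v e₀‖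

lemma exists_qu [Two A] [Fintype X] [Finite Λ] (K : ℕ) {η : ℝ} (hη : 0 < η) :
    ∃ m : ℕ, 2 ≤ m ∧ ∀ (e₀ : A) (V f : X → A), IsStarProjection e₀ → 0 < sz e₀ →
      (∀ x, ‖V x‖ ≤ 1) → (∀ x, IsStarProjection (f x)) → (∀ x, sz (f x) = m * sz e₀) →
      ∃ U, D.Qu K η e₀ V f U := by
  have : Finite {L : List Λ // L.length ≤ K} := List.finite_length_le Λ K
  let M := Λ × {L : List Λ // L.length ≤ K} × Λ
  let _ := Fintype.ofFinite (M ⊕ M × X × M)
  obtain ⟨m, hm⟩ := exists_nat_ge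
    (max 2 ((7 * Fintype.card ((M ⊕ M × X × M) × X × Bool) + 2) / η ^ 2))
  have hm2 : (2 : ℝ) ≤ m := (le_max_left _ _).trans hm
  refine ⟨m, by exact_mod_cast hm2, fun e₀ V f he₀ hpos hV hf hs => ?_⟩
  obtain ⟨U, h1, h2⟩ := quant he₀ hpos (m := m) (by exact_mod_cast (by linarith : (0 : ℝ) < m))
    hf hs (J := M ⊕ M × X × M) (Sum.elim (fun p => D.mid V p.1 p.2.1.1 p.2.2)
      (fun p => D.mid V p.1.1 p.1.2.1.1 p.1.2.2 * f p.2.1 * D.mid V p.2.2.1 p.2.2.2.1.1 p.2.2.2.2))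
    (by
      rintro (p | p)
      · exact D.norm_mid hV _ _ _
      · exact norm_mul_le_one (norm_mul_le_one (D.norm_mid hV _ _ _) (hf _).norm_le)
          (D.norm_mid hV _ _ _)) hη.le (by
      have := (le_max_right _ _).trans hm
      rw [div_le_iff₀ (by positivity)] at this
      rw [div_le_iff₀ (by linarith)]
      linarith)
  exact ⟨U, fun x => (h1 x).1, fun x => (h1 x).2.1,
    fun a L b x hL => (h1 x).2.2 (Sum.inl (a, ⟨L, hL⟩, b)),
    fun a L b x x' hL hx => h2 x x' hx (Sum.inl (a, ⟨L, hL⟩, b)),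
    fun a L b y a' L' b' x x' hL hL' hx =>
      h2 x x' hx (Sum.inr ((a, ⟨L, hL⟩, b), y, (a', ⟨L', hL'⟩, b')))⟩

variable {D}

section Step

variable {K : ℕ} {η s : ℝ} {e e₀ : A} {V f U : X → A} {c : ℕ → ℝ} (he : IsStarProjection e)
  (he₀ : IsStarProjection e₀) (hs : 0 < s) (hη : 0 ≤ η) (h : D.St e V f s)
  (hq : D.Qu K η e₀ V f U) (hb : D.Bd1 K V f fun n => c n * s)

include he₀ hq in
lemma tr_le {x : X} {z : A} {β : ℝ} (hz : ‖v (z * U x)‖ ≤ β * ‖v e₀‖) :
    ‖τ (z * U x)‖ ≤ β * sz e₀ := by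
  have p2 : U x * e₀ = U x := by
    have := pi_mul (a := U x) (by rw [hq.h0]; exact he₀)
    rwa [hq.h0] at this
  have := norm_τ_mul_le (z * U x) e₀
  rw [mul_assoc, p2] at this
  rw [← proj_sq he₀, sq, ← mul_assoc]
  exact this.trans (mul_le_mul_of_nonneg_right hz (norm_nonneg _))

include hs h hb in
lemma lam_le (a b : Λ) {L : List Λ} (x : X) (h0 : L ≠ []) (hL : D.Red L) (hK : L.length ≤ K) :
    ‖τ (D.mid V a L b * f x) / (sz (f x) : ℝ)‖ ≤ c L.length := by
  rw [norm_div, h.hs, Complex.norm_real, Real.norm_of_nonneg hs.le, div_le_iff₀ hs]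
  exact hb a b L x h0 hL hK

include hs h hq hb in
lemma dbl {L : List Λ} (hL : D.Red L) (hK : L.length ≤ K) {c' : ℝ} (hc0 : 0 ≤ c')
    (hc : ∀ j < L.length, c j ≤ c') (L₁ : List Λ) (a : Λ) (L₃ : List Λ) (b : Λ) (L₄ : List Λ)
    (hs' : L = L₁ ++ a :: (L₃ ++ b :: L₄)) :
    ‖v (star (U (D.col a)) * D.mid V a L₃ b * U (D.ι (D.col b)))‖ ≤ (η + c') * ‖v e₀‖ := by
  have hlen : L₃.length < L.length := by
    rw [hs']; simp only [List.length_append, List.length_cons]; omega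
  have hp := mul_nonneg hc0 (norm_nonneg (v e₀))
  by_cases hab : D.col a = D.ι (D.col b)
  · rw [← hab]
    have hr : D.Red (a :: (L₃ ++ b :: L₄)) := by
      rw [hs'] at hL; exact List.IsChain.right_of_append hL
    have h0 : L₃ ≠ [] := by
      rintro rfl
      exact (List.isChain_cons_cons.1 hr).1 (by rw [hab, D.inv])
    have k1 := hq.h1 a L₃ b (D.col a) (by omega)
    have k2 := (lam_le hs h hb a b (D.col a) h0 (List.IsChain.left_of_append hr.tail)
      (by omega)).trans (hc _ hlen)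
    rw [map_sub, map_smul] at k1
    have k3 := norm_le_norm_add_norm_sub' (v (star (U (D.col a)) * D.mid V a L₃ b * U (D.col a)))
      ((τ (D.mid V a L₃ b * f (D.col a)) / (sz (f (D.col a)) : ℝ)) • v e₀)
    rw [norm_smul] at k3
    nlinarith [mul_le_mul_of_nonneg_right k2 (norm_nonneg (v e₀))]
  · have := hq.h2 a L₃ b _ _ (by omega) hab
    linarith

include he he₀ hs hη h hq hb in
lemma step_bd2 {G c' : ℝ} (hc0 : 0 ≤ c') (hc : ∀ j < K, c j ≤ c') (hG : D.Bd2 K V G) :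
    D.Bd2 K (V + fun x => U (D.ι x) * star (U x)) (G + K * (η + K * (η + c')) * sz e₀) := by
  intro L h0 hL hK
  have k := D.expand he₀ (h.norm_le he) hq.h0 (fun _ => rfl)
    ((h.step he₀ hq.h0 hq.hf).norm_le he) norm_one_le norm_one_le L
    (β₁ := η * sz e₀) (β₂ := η + c') (by positivity) (fun L₁ a L₂ hs' => by
      refine tr_le he₀ hq ?_
      have := hq.h2 a (L₂ ++ L₁) a _ _ (by
        rw [hs'] at hK; simp only [List.length_append, List.length_cons] at hK ⊢; omega)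
        (D.ne (D.col a))
      simpa only [mid, wd_append, mul_one, mul_assoc] using this)
    (dbl hs h hq hb hL hK hc0 fun j hj => hc j (by omega))
  simp only [one_mul, mul_one] at k
  have k2 := hG L h0 hL hK
  have k3 : (L.length : ℝ) ≤ K := Nat.cast_le.2 hK
  have k4 := sz_nonneg he₀
  have k5 : (L.length : ℝ) * (η * sz e₀ + L.length * ((η + c') * sz e₀)) ≤
      K * (η * sz e₀ + K * ((η + c') * sz e₀)) := by gcongr
  linarith [norm_le_norm_add_norm_sub' (τ (D.wd (V + fun x => U (D.ι x) * star (U x)) L))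
    (τ (D.wd V L))]

include he he₀ hs hη h hq hb in
lemma step_bd1 (hse : sz e₀ ≤ s) {c' : ℕ → ℝ} (hc0 : ∀ n, 0 ≤ c' n) (hc : ∀ n, ∀ j < n, c j ≤ c' n) :
    D.Bd1 K (V + fun x => U (D.ι x) * star (U x)) (fun x => f x - U x * star (U x))
      fun n => c n * (s - sz e₀) + (η + 2 * n * (η + n * (η + c' n))) * sz e₀ := by
  intro a b L x h0 hL hK
  have hV := h.norm_le he
  have hV' := (h.step he₀ hq.h0 hq.hf).norm_le he
  have hc1 := hc0 L.length
  have hd := dbl hs h hq hb hL hK hc1 (hc L.length)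
  have hUn : ∀ x, ‖U x‖ ≤ 1 := fun x => norm_le_one_of_proj (by rw [hq.h0]; exact he₀)
  have hUv : ∀ x, ‖v (U x)‖ = ‖v e₀‖ := fun x => by
    rw [← sq_eq_sq₀ (norm_nonneg _) (norm_nonneg _), norm_v_of (hq.h0 x), proj_sq he₀]
  have hlen : ∀ L₁ a L₂, L = L₁ ++ a :: L₂ → L₁.length ≤ K ∧ L₂.length ≤ K := by
    intro L₁ a L₂ hs'
    rw [hs'] at hK
    simp only [List.length_append, List.length_cons] at hK
    omega
  have k1 := D.expand he₀ hV hq.h0 (fun _ => rfl) hV' (D.hr a)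
    (norm_mul_le_one (D.hl b) (h.hf x).norm_le) L
    (β₁ := η * sz e₀) (β₂ := η + c' L.length) (by positivity) (fun L₁ a' L₂ hs' => by
      refine tr_le he₀ hq ?_
      have := hq.h3 a' L₂ b x a L₁ a' _ _ (hlen _ _ _ hs').2 (hlen _ _ _ hs').1
        (D.ne (D.col a'))
      simpa only [mid, mul_assoc] using this) hd
  have k2 := D.expand he₀ hV hq.h0 (fun _ => rfl) hV' (D.hr a)
    (norm_mul_le_one (D.hl b) (norm_mul_le_one (hUn x) (by rw [norm_star]; exact hUn x))) L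
    (β₁ := η * sz e₀) (β₂ := η + c' L.length) (by positivity) (fun L₁ a' L₂ hs' => by
      have e1 : star (U (D.col a')) * (D.r a' * D.wd V L₂ * (D.l b * (U x * star (U x))) * D.r a *
          D.wd V L₁ * D.l a') * U (D.ι (D.col a')) =
          (star (U (D.col a')) * D.mid V a' L₂ b * U x) *
            (star (U x) * D.mid V a L₁ a' * U (D.ι (D.col a'))) := by
        simp only [mid, mul_assoc]
      have n1 : ∀ y y' a L b, ‖v (star (U y) * D.mid V a L b * U y')‖ ≤ ‖v e₀‖ := by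
        intro y y' a L b
        rw [← hUv y']
        exact norm_v_mul_le_of_left (norm_mul_le_one (by rw [norm_star]; exact hUn y)
          (D.norm_mid hV _ _ _)) _
      rw [e1, ← proj_sq he₀]
      refine (norm_τ_mul_le _ _).trans ?_
      by_cases hx : D.col a' = x
      · have := hq.h2 a L₁ a' x (D.ι (D.col a')) (hlen _ _ _ hs').1 (by rw [hx]; exact D.ne x)
        calc _ ≤ ‖v e₀‖ * (η * ‖v e₀‖) :=
              mul_le_mul (n1 _ _ _ _ _) this (norm_nonneg _) (norm_nonneg _)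
          _ = _ := by ring
      · have := hq.h2 a' L₂ b _ x (hlen _ _ _ hs').2 hx
        calc _ ≤ (η * ‖v e₀‖) * ‖v e₀‖ :=
              mul_le_mul this (n1 _ _ _ _ _) (norm_nonneg _) (by positivity)
          _ = _ := by ring) hd
  have k3 := lam_le hs h hb a b x h0 hL hK
  obtain ⟨lam, hlam⟩ : ∃ lam, lam = τ (D.mid V a L b * f x) / (sz (f x) : ℝ) := ⟨_, rfl⟩
  have k4 : ‖τ (D.mid V a L b * (U x * star (U x))) - lam * (sz e₀ : ℝ)‖ ≤ η * sz e₀ := by
    have k := hq.h1 a L b x hK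
    have p2 : U x * e₀ = U x := by
      have := pi_mul (a := U x) (by rw [hq.h0]; exact he₀)
      rwa [hq.h0] at this
    have := norm_τ_mul_le (star (U x) * D.mid V a L b * U x - lam • e₀) e₀
    rw [sub_mul, mul_assoc _ (U x), p2, smul_mul_assoc, proj_mul he₀, map_sub, map_smul,
      τ_proj he₀, smul_eq_mul, mul_assoc, τ_comm, mul_assoc] at this
    rw [← hlam] at k
    refine this.trans ?_
    rw [← proj_sq he₀, sq, ← mul_assoc, ← mul_assoc]
    exact mul_le_mul_of_nonneg_right k (norm_nonneg _)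
  have k5 : τ (D.mid V a L b * f x) = lam * (s : ℝ) := by
    rw [hlam, h.hs, div_mul_cancel₀ _ (Complex.ofReal_ne_zero.2 hs.ne')]
  have k6 : ‖lam * ((s - sz e₀ : ℝ) : ℂ)‖ ≤ c L.length * (s - sz e₀) := by
    rw [norm_mul, Complex.norm_real, Real.norm_of_nonneg (sub_nonneg.2 hse)]
    exact mul_le_mul_of_nonneg_right (hlam ▸ k3) (sub_nonneg.2 hse)
  simp only [← mul_assoc (_ * D.wd _ L) (D.l b)] at k1 k2
  change ‖τ (D.mid _ a L b * _) - τ (D.mid _ a L b * _)‖ ≤ _ at k1 k2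
  rw [k5] at k1
  have e2 : ∀ t1 t2 t3 : ℂ, t1 - t2 = (t1 - lam * (s : ℝ)) - (t2 - t3) - (t3 - lam * (sz e₀ : ℝ)) +
      lam * ((s - sz e₀ : ℝ) : ℂ) := fun t1 t2 t3 => by push_cast; ring
  rw [mul_sub, map_sub, e2 _ _ (τ (D.mid V a L b * (U x * star (U x))))]
  refine (norm_add_le _ _).trans ?_
  refine (add_le_add_left ((norm_sub_le _ _).trans (add_le_add_left (norm_sub_le _ _) _)) _).trans ?_
  linarith

end Step

end Alph

end Vale.Agent.P085
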