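import Vale.Agent.P085.Free

/-! Iteration of the patching step. -/

open Filter Topology
open scoped InnerProductSpace ComplexOrder ComplexConjugate

namespace Vale.Agent.P085

lemma step_arith {η B T m s : ℝ} {n K : ℕ} (k : ℝ) (hη : 0 < η) (hT : 1 ≤ T) (hm : 2 ≤ m)
    (hs : 0 < s) (hB : B = 12 * T * (K + 1) ^ 2) (hn : n ≤ K) :
    η * B ^ (n + 1) * (1 + k / (T * m)) * (s - s / m) +
      (η + 2 * n * (η + n * (η + 2 * η * B ^ n))) * (s / m) ≤
      η * B ^ (n + 1) * (1 + (k + 1) / (T * m)) * (s - s / m) := by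
  have hnK : (n : ℝ) ≤ K := Nat.cast_le.2 hn
  have hn0 : (0 : ℝ) ≤ n := Nat.cast_nonneg n
  have hB1 : 1 ≤ B := by rw [hB]; nlinarith
  have hBn : 1 ≤ B ^ n := one_le_pow₀ hB1
  have h1 : η + 2 * n * (η + n * (η + 2 * η * B ^ n)) ≤ η * B ^ n * (6 * (K + 1) ^ 2) := by
    have a1 : 1 + 2 * (n : ℝ) + 2 * n ^ 2 ≤ B ^ n * (1 + 2 * n + 2 * n ^ 2) :=
      le_mul_of_one_le_left (by positivity) hBn
    have a2 : 1 + 2 * (n : ℝ) + 6 * n ^ 2 ≤ 6 * (K + 1) ^ 2 := by nlinarith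
    have a3 := mul_le_mul_of_nonneg_left a2 (by positivity : 0 ≤ B ^ n)
    have a4 : 1 + 2 * (n : ℝ) * (1 + n * (1 + 2 * B ^ n)) ≤ B ^ n * (6 * (K + 1) ^ 2) := by
      nlinarith
    nlinarith [mul_le_mul_of_nonneg_left a4 hη.le]
  have h2 : s / 2 ≤ s - s / m := by
    have : s / m ≤ s / 2 := div_le_div_of_nonneg_left hs.le two_pos hm
    linarith
  have h3 : η * B ^ n * (6 * (K + 1) ^ 2) * (s / m) =
      η * B ^ (n + 1) * (1 / (T * m)) * (s / 2) := by
    rw [pow_succ B, hB]; field_simp; ring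
  have h4 : η * B ^ (n + 1) * (1 / (T * m)) * (s / 2) ≤
      η * B ^ (n + 1) * (1 / (T * m)) * (s - s / m) :=
    mul_le_mul_of_nonneg_left h2 (by positivity)
  have h5 := mul_le_mul_of_nonneg_right h1 (by positivity : 0 ≤ s / m)
  have h6 : η * B ^ (n + 1) * (1 + (k + 1) / (T * m)) * (s - s / m) =
      η * B ^ (n + 1) * (1 + k / (T * m)) * (s - s / m) +
        η * B ^ (n + 1) * (1 / (T * m)) * (s - s / m) := by ring
  linarith

variable {A : Type*} [CStarAlgebra A] [Tr A] [Two A]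

namespace Alph

variable {X Λ : Type*} (D : Alph A X Λ)

omit [Tr A] [Two A] in
lemma wd_zero {L : List Λ} (h : L ≠ []) : D.wd 0 L = 0 := by
  obtain ⟨a, L, rfl⟩ := List.exists_cons_of_ne_nil h
  simp [wd]

lemma iterate [Fintype X] [Finite Λ] {e : A} (he : IsStarProjection e) (he0 : 0 < sz e)
    (K T : ℕ) (hT : 1 ≤ T) {η : ℝ} (hη : 0 < η) :
    ∃ V f s, D.St e V f s ∧ 0 < s ∧ s * (1 + T) ≤ 1 ∧
      D.Bd2 K V (K * (η + K * (η + 2 * η * (12 * T * (K + 1) ^ 2) ^ K))) := by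
  obtain ⟨m, hm, hqu⟩ := D.exists_qu K hη
  obtain ⟨B, hB⟩ : ∃ B : ℝ, B = 12 * T * (K + 1) ^ 2 := ⟨_, rfl⟩
  have hTR : (1 : ℝ) ≤ T := by exact_mod_cast hT
  have hmR : (2 : ℝ) ≤ m := by exact_mod_cast hm
  have hB1 : 1 ≤ B := by
    rw [hB]; nlinarith [Nat.cast_nonneg (α := ℝ) K]
  rw [← hB]
  obtain ⟨G, hG⟩ : ∃ G : ℝ, G = K * (η + K * (η + 2 * η * B ^ K)) := ⟨_, rfl⟩
  have hG0 : 0 ≤ G := by rw [hG]; positivity
  rw [← hG]
  have key : ∀ k : ℕ, k ≤ T * m → ∃ V f s, D.St e V f s ∧ 0 < s ∧ s * (1 + k / m) ≤ sz e ∧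
      D.Bd1 K V f (fun n => η * B ^ (n + 1) * (1 + k / (T * m)) * s) ∧
      D.Bd2 K V (G * (sz e - s)) := by
    intro k
    induction k with
    | zero =>
      intro _
      refine ⟨0, fun _ => e, sz e, ⟨by simp, by simp, fun _ => he, by simp, fun _ => rfl⟩, he0,
        by simp, fun a b L x h0 _ _ => ?_, fun L h0 _ _ => ?_⟩
      · rw [mid, D.wd_zero h0, mul_zero, zero_mul, zero_mul, map_zero, norm_zero]
        positivity
      · simp [D.wd_zero h0]
    | succ k ih =>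
      intro hk
      obtain ⟨V, f, s, h1, h2, h3, h4, h5⟩ := ih (by omega)
      have hk0 : (0 : ℝ) ≤ k / m := by positivity
      have hs1 : s ≤ 1 := by nlinarith [sz_le_one he]
      have hsm : s / m ≤ s / 2 := div_le_div_of_nonneg_left h2.le two_pos hmR
      obtain ⟨e₀, he₀, -, he₀'⟩ := exists_sz (IsStarProjection.one A) (t := s / m)
        (by positivity) (by rw [sz_one]; linarith)
      obtain ⟨U, hU⟩ := hqu e₀ V f he₀ (by rw [he₀']; positivity) (h1.norm_le he) h1.hf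
        (fun x => by rw [h1.hs, he₀']; field_simp)
      have hc : ∀ n, ∀ j < n, η * B ^ (j + 1) * (1 + k / (T * m)) ≤ 2 * η * B ^ n := by
        intro n j hj
        have a1 : (k : ℝ) / (T * m) ≤ 1 := by
          rw [div_le_one (by positivity)]
          exact_mod_cast (by omega : k ≤ T * m)
        have a2 : B ^ (j + 1) ≤ B ^ n := pow_le_pow_right₀ hB1 hj
        calc _ ≤ η * B ^ n * (1 + 1) := by gcongr
          _ = _ := by ring
      have b1 := step_bd1 he he₀ h2 hη.le h1 hU h4 (by rw [he₀']; linarith)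
        (c' := fun n => 2 * η * B ^ n) (fun n => by positivity) hc
      have b2 := step_bd2 he he₀ h2 hη.le h1 hU h4 (c' := 2 * η * B ^ K) (by positivity)
        (hc K) h5
      refine ⟨_, _, _, h1.step he₀ hU.h0 hU.hf, by rw [he₀']; linarith, ?_,
        fun a b L x h0 hL hK => (b1 a b L x h0 hL hK).trans ?_,
        fun L h0 hL hK => (b2 L h0 hL hK).trans (le_of_eq (by rw [← hG]; ring))⟩
      · rw [he₀']
        refine le_trans ?_ h3
        push_cast
        have : (s - s / m) * (1 + (k + 1) / m) = s * (1 + k / m) - s * (k + 1) / m ^ 2 := by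
          field_simp; ring
        rw [this]
        have : 0 ≤ s * (k + 1) / m ^ 2 := by positivity
        linarith
      · rw [he₀']
        push_cast
        exact step_arith k hη hTR hmR h2 hB hK
  obtain ⟨V, f, s, h1, h2, h3, -, h5⟩ := key (T * m) le_rfl
  refine ⟨V, f, s, h1, h2, ?_, fun L h0 hL hK => (h5 L h0 hL hK).trans ?_⟩
  · have : ((T * m : ℕ) : ℝ) / m = T := by push_cast; field_simp
    rw [this] at h3
    exact h3.trans (sz_le_one he)
  · exact mul_le_of_le_one_right hG0 (by linarith [sz_le_one he])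

end Alph

lemma exists_free {I Λ : Type*} [Finite I] [Finite Λ] (D : Alph A (I × Bool) Λ)
    (hι : ∀ x, D.ι x = (x.1, !x.2)) {e : A} (he : IsStarProjection e) (he0 : 0 < sz e)
    (K : ℕ) {δ : ℝ} (hδ : 0 < δ) :
    ∃ Z : I × Bool → A, (∀ x, CU e (Z x)) ∧ (∀ i, Z (i, false) = star (Z (i, true))) ∧
      D.Bd2 K Z δ := by
  let _ := Fintype.ofFinite I
  obtain ⟨T, hT⟩ := exists_nat_ge (max 1 (2 * K / δ))
  have hT1 : (1 : ℝ) ≤ T := (le_max_left _ _).trans hT
  have hT2 : 2 * K ≤ T * δ := (div_le_iff₀ hδ).1 ((le_max_right _ _).trans hT)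
  obtain ⟨C, hC⟩ : ∃ C : ℝ, C = K * (1 + K * (1 + 2 * (12 * T * (K + 1) ^ 2) ^ K)) := ⟨_, rfl⟩
  have hC0 : 0 ≤ C := by rw [hC]; positivity
  obtain ⟨V, f, s, h1, h2, h3, h4⟩ := D.iterate he he0 K T (by exact_mod_cast hT1)
    (η := δ / (2 * (C + 1))) (by positivity)
  choose r hr1 hr2 using fun i => compare_eq (h1.hf (i, true)) (h1.hf (i, false))
    (by rw [h1.hs, h1.hs])
  set R : I × Bool → A := fun x => if x.2 then r x.1 else star (r x.1) with hR
  have R1 : ∀ x, star (R x) * R x = f x := by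
    rintro ⟨i, _ | _⟩ <;> simp [hR, hr1, hr2]
  have R2 : ∀ x, R (D.ι x) = star (R x) := by
    rintro ⟨i, _ | _⟩ <;> simp [hR, hι]
  have R3 : ∀ x, R x * f x = R x := fun x => by
    have := pi_mul (a := R x) (by rw [R1]; exact h1.hf x)
    rwa [R1] at this
  have R4 : ∀ x, star (V x) * R x = 0 := fun x => by
    have := mul_of_star (R3 (D.ι x))
    rw [proj_star (h1.hf _), R2, star_star] at this
    rw [← this, ← mul_assoc, ← h1.hstar, h1.hV, zero_mul]
  have Z1 : ∀ x, star ((V + R) x) * (V + R) x = e := fun x => by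
    have := mul_of_star (R4 x)
    rw [star_star, star_zero] at this
    rw [Pi.add_apply, star_add, add_mul, mul_add, mul_add, R4, this, R1, add_zero, zero_add,
      h1.hsum]
  have Z2 : ∀ x, (V + R) (D.ι x) = star ((V + R) x) := fun x => by
    rw [Pi.add_apply, Pi.add_apply, star_add, h1.hstar, R2]
  have Z3 : ∀ x, CU e ((V + R) x) := fun x => ⟨Z1 x, by
    have := Z1 (D.ι x)
    rwa [Z2, star_star] at this⟩
  refine ⟨V + R, Z3, fun i => by rw [← Z2, hι]; rfl, fun L h0 hL hK => ?_⟩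
  have k1 := D.tele_wd V R 1 1 L s fun L₁ a L₂ _ => by
    have e1 : τ (1 * D.wd V L₁ * D.l a * R (D.col a) * D.r a * D.wd (V + R) L₂ * 1) =
        τ ((D.r a * D.wd (V + R) L₂ * D.wd V L₁ * D.l a * R (D.col a)) * f (D.col a)) := by
      have := τ_comm (D.wd V L₁ * D.l a * R (D.col a)) (D.r a * D.wd (V + R) L₂)
      rw [mul_assoc _ (R _) (f _), R3]
      simpa only [one_mul, mul_one, mul_assoc] using this
    have e2 : ‖v (R (D.col a))‖ = ‖v (f (D.col a))‖ := by
      rw [← sq_eq_sq₀ (norm_nonneg _) (norm_nonneg _), norm_v_of (R1 _), proj_sq (h1.hf _)]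
    rw [e1, ← h1.hs (D.col a), ← proj_sq (h1.hf _), sq]
    refine (norm_τ_mul_le _ _).trans (mul_le_mul_of_nonneg_right ?_ (norm_nonneg _))
    rw [← e2]
    exact norm_v_mul_le_of_left (norm_mul_le_one (norm_mul_le_one (norm_mul_le_one (D.hr a)
      (D.norm_wd (fun x => (Z3 x).norm_le he) _)) (D.norm_wd (h1.norm_le he) _)) (D.hl a)) _
  simp only [one_mul, mul_one] at k1
  have k2 := h4 L h0 hL hK
  have k3 : (K : ℝ) * (δ / (2 * (C + 1)) + K * (δ / (2 * (C + 1)) +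
      2 * (δ / (2 * (C + 1))) * (12 * T * (K + 1) ^ 2) ^ K)) = C * (δ / (2 * (C + 1))) := by
    rw [hC]; ring
  have k4 : C * (δ / (2 * (C + 1))) ≤ δ / 2 := by
    rw [← mul_div_assoc, div_le_div_iff₀ (by positivity) two_pos]
    nlinarith
  have k5 : (L.length : ℝ) * s ≤ K * s :=
    mul_le_mul_of_nonneg_right (Nat.cast_le.2 hK) h2.le
  have k6 : (K : ℝ) * s ≤ δ / 2 := by nlinarith
  linarith [norm_le_norm_add_norm_sub' (τ (D.wd (V + R) L)) (τ (D.wd V L))]

end Vale.Agent.P085
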