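import Vale.Agent.P085.Dix

/-! Comparison theory of projections. -/

open Filter Topology
open scoped InnerProductSpace ComplexOrder ComplexConjugate

namespace Vale.Agent.P085

lemma brezis_browder {X : Type*} (r : X → X → Prop) (hrefl : ∀ x, r x x)
    (htrans : ∀ x y z, r x y → r y z → r x z) (φ : X → ℝ) (hb : ∀ x, φ x ≤ 1)
    (hmono : ∀ x y, r x y → φ x ≤ φ y)
    (hlim : ∀ x : ℕ → X, (∀ n, r (x n) (x (n + 1))) → ∃ y, ∀ n, r (x n) y) (x₀ : X) :
    ∃ x, ∀ y, r x y → φ y ≤ φ x := by
  have hstep : ∀ x, ∃ y, r x y ∧ ∀ z, r x z → φ z - φ x ≤ 2 * (φ y - φ x) := by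
    intro x
    set S : Set ℝ := φ '' {z | r x z} with hS
    have hbd : BddAbove S := ⟨1, by rintro _ ⟨z, -, rfl⟩; exact hb z⟩
    have hne : S.Nonempty := ⟨_, x, hrefl x, rfl⟩
    rcases le_or_gt (sSup S) (φ x) with h | h
    · exact ⟨x, hrefl x, fun z hz => by linarith [le_csSup hbd ⟨z, hz, rfl⟩]⟩
    · obtain ⟨_, ⟨y, hy, rfl⟩, h2⟩ := exists_lt_of_lt_csSup hne
        (show (φ x + sSup S) / 2 < sSup S by linarith)
      exact ⟨y, hy, fun z hz => by linarith [le_csSup hbd ⟨z, hz, rfl⟩]⟩
  choose f hf hf' using hstep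
  obtain ⟨y, hy⟩ := hlim (fun n => f^[n] x₀) fun n => by
    rw [Function.iterate_succ_apply']; exact hf _
  refine ⟨y, fun z hz => ?_⟩
  by_contra hcon
  push Not at hcon
  have key : ∀ n : ℕ, φ x₀ + n * ((φ z - φ y) / 2) ≤ φ (f^[n] x₀) := by
    intro n
    induction n with
    | zero => simp
    | succ n ih =>
      have h1 := hf' _ z (htrans _ _ _ (hy n) hz)
      have h2 := hmono _ _ (hy n)
      rw [Function.iterate_succ_apply']
      push_cast
      linarith
  obtain ⟨n, hn⟩ := exists_nat_gt ((1 - φ x₀) / ((φ z - φ y) / 2))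
  rw [div_lt_iff₀ (by linarith)] at hn
  linarith [key n, hb (f^[n] x₀)]

variable {A : Type*} [CStarAlgebra A]

lemma proj_le_of {p q : A} (hp : IsStarProjection p) (hq : IsStarProjection q)
    (h : p * q * p = p) : q * p = p := by
  have : star (p - q * p) * (p - q * p) = 0 := by
    have e : star (p - q * p) * (p - q * p) =
        p * p - p * q * p - p * q * p + p * (q * q) * p := by
      rw [star_sub, star_mul, proj_star hp, proj_star hq]; noncomm_ring
    rw [e, proj_mul hp, proj_mul hq, h]; abel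
  exact (sub_eq_zero.1 (CStarRing.star_mul_self_eq_zero_iff _ |>.1 this)).symm

lemma proj_comm {p e : A} (hp : IsStarProjection p) (he : IsStarProjection e) (h : p * e = e) :
    e * p = e := by
  have := mul_of_star h
  rwa [proj_star hp, proj_star he] at this

lemma ext_le {w w' : A} (hw : IsStarProjection (star w * w))
    (hw' : IsStarProjection (star w' * w')) (h : w' * (star w * w) = w) :
    star w' * w' * (star w * w) = star w * w := by
  refine proj_le_of hw hw' ?_
  have h2 := mul_of_star h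
  rw [proj_star hw] at h2
  calc star w * w * (star w' * w') * (star w * w)
      = (star w * w * star w') * (w' * (star w * w)) := by simp only [mul_assoc]
    _ = _ := by rw [h, h2]

variable [Tr A]

lemma sz_mono {p e : A} (hp : IsStarProjection p) (he : IsStarProjection e) (h : p * e = e) :
    sz e ≤ sz p := by
  have := sz_nonneg (he.sub_of_mul_eq_right hp h)
  rw [sz_sub] at this
  linarith

lemma ext_dist {w w' : A} (hw : IsStarProjection (star w * w))
    (hw' : IsStarProjection (star w' * w')) (h : w' * (star w * w) = w) :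
    ‖v w' - v w‖ ^ 2 = sz (star w' * w') - sz (star w * w) := by
  have h1 := ext_le hw hw' h
  have h2 : star w' * w = star w * w := by rw [← h1, mul_assoc, h]
  have h3 := mul_of_star h2
  rw [star_star, proj_star hw] at h3
  rw [← map_sub, norm_v_sq_sz, star_sub, sub_mul, mul_sub, mul_sub, h2, h3, sub_self, sub_zero,
    sz_sub]

variable [Two A]

lemma exists_max_pi (Q : A → Prop) (hQ : ∀ (x : ℕ → A) y, (∀ n, Q (x n)) → Conv x y → Q y)
    (h0 : Q 0) : ∃ w, IsStarProjection (star w * w) ∧ Q w ∧ ∀ w',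
      IsStarProjection (star w' * w') → Q w' → w' * (star w * w) = w →
        sz (star w' * w') ≤ sz (star w * w) := by
  have htr : ∀ x y z : A, IsStarProjection (star x * x) → IsStarProjection (star y * y) →
      y * (star x * x) = x → z * (star y * y) = y → z * (star x * x) = x := by
    intro x y z hx hy h1 h2
    rw [← ext_le hx hy h1, ← mul_assoc, h2, h1]
  obtain ⟨w, hw⟩ := brezis_browder (X := {w : A // IsStarProjection (star w * w) ∧ Q w})
    (fun w w' => w'.1 * (star w.1 * w.1) = w.1) (fun w => pi_mul w.2.1)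
    (fun x y z => htr _ _ _ x.2.1 y.2.1) (fun w => sz (star w.1 * w.1))
    (fun w => sz_le_one w.2.1)
    (fun x y h => sz_mono y.2.1 x.2.1 (ext_le x.2.1 y.2.1 h)) (by
      intro x hx
      have hle : ∀ n m, n ≤ m → (x m).1 * (star (x n).1 * (x n).1) = (x n).1 := by
        intro n m h
        induction h with
        | refl => exact pi_mul (x n).2.1
        | step _ ih => exact htr _ _ _ (x n).2.1 (x _).2.1 ih (hx _)
      set φ : ℕ → ℝ := fun n => sz (star (x n).1 * (x n).1) with hφ
      have hmono : Monotone φ := fun n m h =>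
        sz_mono (x m).2.1 (x n).2.1 (ext_le (x n).2.1 (x m).2.1 (hle n m h))
      have hbd : BddAbove (Set.range φ) := ⟨1, by rintro _ ⟨n, rfl⟩; exact sz_le_one (x n).2.1⟩
      have hlim : Tendsto (fun n => √(iSup φ - φ n)) atTop (𝓝 0) := by
        simpa using ((tendsto_atTop_ciSup hmono hbd).const_sub (iSup φ)).sqrt
      have hc : CauchySeq fun n => v (x n).1 := by
        refine cauchySeq_of_le_tendsto_0' _ (fun n m h => ?_) hlim
        rw [dist_comm, dist_eq_norm]
        refine Real.le_sqrt_of_sq_le ?_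
        rw [ext_dist (x n).2.1 (x m).2.1 (hle n m h)]
        exact sub_le_sub_right (le_ciSup hbd m) _
      have hn1 : ∀ n, ‖(x n).1‖ ≤ 1 := fun n => norm_le_one_of_proj (x n).2.1
      obtain ⟨y, -, hy⟩ := Two.compl _ hn1 hc
      have hp : Conv (fun n => star (x n).1 * (x n).1) (star y * y) :=
        hy.star.mul hy fun n => by rw [norm_star]; exact hn1 n
      have hproj : IsStarProjection (star y * y) :=
        ⟨((hp.mul hp fun n => (x n).2.1.norm_le).congr fun n => proj_mul (x n).2.1).unique hp,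
          IsSelfAdjoint.star_mul_self y⟩
      refine ⟨⟨y, hproj, hQ _ _ (fun n => (x n).2.2) hy⟩, fun n => ?_⟩
      exact ((hy.shift n).mul_right _).unique
        ((Conv.const _).congr fun m => (hle n (m + n) (by omega)).symm))
    ⟨0, by simp, h0⟩
  exact ⟨w.1, w.2.1, w.2.2, fun w' h1 h2 h3 => hw ⟨w', h1, h2⟩ h3⟩

lemma pow_limit {s : A} (hs : star s = s) (hn : ‖s‖ ≤ 1) : ∃ e, IsStarProjection e ∧
    s * s * e = e ∧ (∀ b, b * (s * s) = b → b * e = b) ∧ ∀ p, p * (s * s) = s * s → p * e = e := by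
  set t : ℕ → ℝ := fun n => sz ((s * s) ^ n) with ht
  have hts : ∀ n, t n = ‖v (s ^ n)‖ ^ 2 := fun n => by
    rw [norm_v_sq_sz, star_pow, hs, ← (Commute.refl s).mul_pow]
  have hanti : Antitone t := antitone_nat_of_succ_le fun n => by
    rw [hts, hts, pow_succ' s]
    exact pow_le_pow_left₀ (norm_nonneg _) (norm_v_mul_le_of_left hn _) 2
  have hbd : BddBelow (Set.range t) := ⟨0, by rintro _ ⟨n, rfl⟩; rw [hts]; positivity⟩
  have hlim : Tendsto (fun n => √(2 * (t n - iInf t))) atTop (𝓝 0) := by
    simpa using (((tendsto_atTop_ciInf hanti hbd).sub_const (iInf t)).const_mul 2).sqrt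
  have hss : star (s * s) = s * s := by rw [star_mul, hs]
  have hc : CauchySeq fun n => v ((s * s) ^ n) := by
    refine cauchySeq_of_le_tendsto_0 _ (fun n m N h1 h2 => ?_) hlim
    rw [dist_eq_norm]
    refine Real.le_sqrt_of_sq_le ?_
    rw [← map_sub, norm_v_sq_sz, star_sub, star_pow, star_pow, hss, sub_mul, mul_sub, mul_sub,
      ← pow_add, ← pow_add, ← pow_add, ← pow_add, sz_sub, sz_sub, sz_sub]
    have a1 : t (n + n) ≤ t N := hanti (by omega)
    have a2 : t (m + m) ≤ t N := hanti (by omega)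
    have a3 := ciInf_le hbd (n + m)
    have a4 := ciInf_le hbd (m + n)
    simp only [ht] at a1 a2 a3 a4 ⊢
    linarith
  have hn1 : ∀ n, ‖(s * s) ^ n‖ ≤ 1 := fun n => by
    induction n with
    | zero => simpa using norm_one_le
    | succ n ih => rw [pow_succ]; exact norm_mul_le_one ih (norm_mul_le_one hn hn)
  obtain ⟨e, -, he⟩ := Two.compl _ hn1 hc
  have h2 : Conv (fun n => (s * s) ^ (n + n)) e :=
    Tendsto.comp (g := fun n => ‖v ((s * s) ^ n - e)‖) (f := fun n => n + n) he
      (tendsto_atTop_mono (fun n => Nat.le_add_right n n) tendsto_id)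
  refine ⟨e, ⟨((he.mul he hn1).congr fun n => (pow_add _ _ _).symm).unique h2,
    (he.star.congr fun n => by rw [star_pow, hss]).unique he⟩, ?_, ?_, ?_⟩
  · exact ((he.mul_left (s * s)).congr fun n => (pow_succ' _ _).symm).unique (he.shift 1)
  · intro b hb
    refine (he.mul_left b).unique ((Conv.const b).congr fun n => ?_)
    induction n with
    | zero => simp
    | succ n ih => rw [pow_succ, ← mul_assoc, ← ih, hb]
  · intro p hp
    refine ((he.shift 1).mul_left p).unique ((he.shift 1).congr fun n => ?_)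
    rw [pow_succ', ← mul_assoc, hp]

lemma exists_pi {x : A} (hx : ‖x‖ = 1) {c : ℝ} (hc0 : 0 < c) (hc1 : c < 1) :
    ∃ w, IsStarProjection (star w * w) ∧ star w * w ≠ 0 ∧ (∀ q, q * x = x → q * w = w) ∧
      (∀ p, IsStarProjection p → x * p = x → w * p = w) ∧
      ‖star x * x * (star w * w) - star w * w‖ ≤ 1 - c := by
  have : Nontrivial A := ⟨x, 0, by rintro rfl; simp at hx⟩
  set h := star x * x with hh
  have hsa : IsSelfAdjoint h := IsSelfAdjoint.star_mul_self x
  have hn : ‖h‖ = 1 := by rw [hh, CStarRing.norm_star_mul_self, hx, one_mul]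
  have hsp : ∀ t ∈ spectrum ℝ h, 0 ≤ t ∧ t ≤ 1 := fun t ht =>
    ⟨spectrum_star_mul_self_nonneg t ht, (le_abs_self t).trans
      ((spectrum.norm_le_norm_of_mem ht).trans hn.le)⟩
  have hmax : ∀ t : ℝ, 0 < max t c := fun t => lt_max_of_lt_right hc0
  have cg : Continuous fun t : ℝ => (√(max t c))⁻¹ :=
    Continuous.inv₀ (by fun_prop) fun t => (Real.sqrt_pos.2 (hmax t)).ne'
  have ck : Continuous fun t : ℝ => t / max t c :=
    Continuous.div (by fun_prop) (by fun_prop) fun t => (hmax t).ne'
  set g := cfc (fun t : ℝ => (√(max t c))⁻¹) h with hg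
  set s := cfc (fun t : ℝ => √(t / max t c)) h with hs
  set k := cfc (fun t : ℝ => t / max t c) h with hk
  have g1 : star g = g := (cfc_predicate (R := ℝ) _ h : IsSelfAdjoint g)
  have s1 : star s = s := (cfc_predicate (R := ℝ) _ h : IsSelfAdjoint s)
  have s2 : s * s = k := by
    rw [hs, ← cfc_mul _ _ h ck.sqrt.continuousOn ck.sqrt.continuousOn]
    exact cfc_congr fun t ht => Real.mul_self_sqrt (div_nonneg (hsp t ht).1 (hmax t).le)
  have s3 : ‖s‖ ≤ 1 := norm_cfc_le zero_le_one fun t _ => by
    rw [Real.norm_of_nonneg (Real.sqrt_nonneg _)]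
    exact Real.sqrt_le_one.2 ((div_le_one (hmax t)).2 (le_max_left _ _))
  have k1 : h * (g * g) = k := by
    rw [hg, ← cfc_mul _ _ h cg.continuousOn cg.continuousOn]
    nth_rw 1 [← cfc_id' ℝ h]
    rw [← cfc_mul (fun t => t) (fun t => (√(max t c))⁻¹ * (√(max t c))⁻¹) h (by fun_prop)
      (cg.mul cg).continuousOn]
    refine cfc_congr fun t _ => ?_
    rw [← mul_inv, Real.mul_self_sqrt (hmax t).le, div_eq_mul_inv]
  have g2 : g * h = h * g := (Commute.refl h).cfc_real _
  obtain ⟨e, he, e1, e2, e3⟩ := pow_limit s1 s3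
  rw [s2] at e1 e2 e3
  have w1 : star (x * g * e) * (x * g * e) = e := by
    calc star (x * g * e) * (x * g * e) = e * (g * h * g * e) := by
          rw [star_mul, star_mul, g1, proj_star he, hh]; simp only [mul_assoc]
      _ = e := by rw [g2, mul_assoc h, k1, e1, proj_mul he]
  refine ⟨x * g * e, by rw [w1]; exact he, ?_, ?_, ?_, ?_⟩
  · rw [w1]
    intro h0
    have b1 := e2 (cfc (fun t : ℝ => max (t - c) 0) h) (by
      rw [hk, ← cfc_mul _ _ h (by fun_prop) ck.continuousOn]
      refine cfc_congr fun t _ => ?_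
      rcases le_total t c with h | h
      · rw [max_eq_right (sub_nonpos.2 h), zero_mul]
      · rw [max_eq_left h, div_self (hc0.trans_le h).ne', mul_one])
    rw [h0, mul_zero] at b1
    have b2 : ‖cfc (fun t : ℝ => t - max (t - c) 0) h‖ ≤ c := norm_cfc_le hc0.le fun t ht => by
      have := hsp t ht
      rw [Real.norm_eq_abs, abs_le]
      rcases le_total t c with h | h
      · rw [max_eq_right (sub_nonpos.2 h)]; constructor <;> linarith
      · rw [max_eq_left (sub_nonneg.2 h)]; constructor <;> linarith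
    rw [cfc_sub _ _ h, cfc_id' ℝ h, ← b1, sub_zero, hn] at b2
    linarith
  · intro q hq
    rw [← mul_assoc, ← mul_assoc, hq]
  · intro p hp hxp
    have h1 := mul_of_star hxp
    rw [proj_star hp] at h1
    have h2 := e3 p (by rw [← k1, ← mul_assoc, hh, ← mul_assoc p, h1])
    rw [mul_assoc, proj_comm hp he h2]
  · rw [w1]
    have b2 : ‖cfc (fun t : ℝ => t - t / max t c) h‖ ≤ 1 - c :=
      norm_cfc_le (by linarith) fun t ht => by
        have := hsp t ht
        rw [Real.norm_eq_abs, abs_le]
        rcases le_total t c with h | h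
        · rw [max_eq_right h]
          have a1 : t / c ≤ 1 := (div_le_one hc0).2 h
          have a2 : t / c * c = t := div_mul_cancel₀ _ hc0.ne'
          have a3 : 0 ≤ t / c := div_nonneg this.1 hc0.le
          constructor <;> nlinarith
        · rw [max_eq_left h, div_self (hc0.trans_le h).ne']; constructor <;> linarith
    rw [cfc_sub _ _ h (by fun_prop) ck.continuousOn, cfc_id' ℝ h] at b2
    calc ‖h * e - e‖ = ‖(h - k) * e‖ := by rw [sub_mul, e1]
      _ ≤ (1 - c) * 1 := (norm_mul_le _ _).trans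
          (mul_le_mul b2 he.norm_le (norm_nonneg _) (by linarith))
      _ = 1 - c := mul_one _

omit [Tr A] [Two A] in
lemma norm_normalize {x : A} (hx : x ≠ 0) : ‖((‖x‖⁻¹ : ℝ) : ℂ) • x‖ = 1 := by
  rw [norm_smul, Complex.norm_real, norm_inv, norm_norm, inv_mul_cancel₀ (norm_ne_zero_iff.2 hx)]

lemma exists_link {p q : A} (hp : IsStarProjection p) (hq : IsStarProjection q) (hp0 : p ≠ 0)
    (hq0 : q ≠ 0) :
    ∃ w, IsStarProjection (star w * w) ∧ star w * w ≠ 0 ∧ q * w = w ∧ w * p = w := by
  obtain ⟨y, hy⟩ := prime hq0 hp0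
  obtain ⟨w, h1, h2, h3, h4, -⟩ := exists_pi (norm_normalize hy) (c := 1 / 2) (by norm_num)
    (by norm_num)
  refine ⟨w, h1, h2, h3 q ?_, h4 p hp ?_⟩
  · rw [mul_smul_comm, ← mul_assoc, ← mul_assoc, proj_mul hq]
  · rw [smul_mul_assoc, mul_assoc _ p, proj_mul hp]

lemma compare {p q : A} (hp : IsStarProjection p) (hq : IsStarProjection q) (h : sz p ≤ sz q) :
    ∃ w, star w * w = p ∧ q * w = w := by
  obtain ⟨w, h1, ⟨h2, h3⟩, h4⟩ := exists_max_pi (fun w : A => q * w = w ∧ w * p = w)
    (fun x y hx hy => ⟨((hy.mul_left q).congr fun n => (hx n).1).unique hy,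
      ((hy.mul_right p).congr fun n => (hx n).2).unique hy⟩) (by simp)
  have h1' := proj_mul_star h1
  have hp' : IsStarProjection (p - star w * w) :=
    h1.sub_of_mul_eq_left hp (by rw [mul_assoc, h3])
  have hq' : IsStarProjection (q - w * star w) :=
    h1'.sub_of_mul_eq_right hq (by rw [← mul_assoc, h2])
  refine ⟨w, ?_, h2⟩
  by_contra hne
  have hp0 : p - star w * w ≠ 0 := fun h0 => hne (sub_eq_zero.1 h0).symm
  have hq0 : q - w * star w ≠ 0 := by
    intro h0
    have a1 := sz_pos hp' hp0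
    rw [sz_sub, sz_comm, ← sub_eq_zero.1 h0] at a1
    linarith
  obtain ⟨u, u1, u2, u3, u4⟩ := exists_link hp' hq' hp0 hq0
  have w1 := mul_of_star h2
  have w2 := mul_of_star h3
  have w3 := mul_of_star (pi_mul h1)
  rw [proj_star hq] at w1
  rw [proj_star hp] at w2
  rw [proj_star h1] at w3
  have o1 : star w * u = 0 := by
    rw [← u3, ← mul_assoc, mul_sub, w1, ← mul_assoc, w3, sub_self, zero_mul]
  have o2 : u * star w = 0 := by
    rw [← u4, mul_assoc, sub_mul, w2, w3, sub_self, mul_zero]
  have o3 := mul_of_star o1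
  have o4 := mul_of_star o2
  rw [star_star, star_zero] at o3 o4
  have e1 : star (w + u) * (w + u) = star w * w + star u * u := by
    rw [star_add, add_mul, mul_add, mul_add, o1, o3, add_zero, zero_add]
  have u5 : q * u = u := by
    rw [← u3, ← mul_assoc, mul_sub, proj_mul hq, ← mul_assoc, h2]
  have u6 : u * p = u := by
    rw [← u4, mul_assoc, sub_mul, proj_mul hp, mul_assoc _ w, h3]
  have := h4 (w + u) (by
    rw [e1]
    exact h1.add u1 (by rw [mul_assoc, ← mul_assoc w, o4, zero_mul, mul_zero]))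
    ⟨by rw [mul_add, h2, u5], by rw [add_mul, h3, u6]⟩
    (by rw [add_mul, pi_mul h1, ← mul_assoc, o2, zero_mul, add_zero])
  rw [e1, sz_add] at this
  linarith [sz_pos u1 u2]

lemma compare_eq {p q : A} (hp : IsStarProjection p) (hq : IsStarProjection q)
    (h : sz p = sz q) : ∃ w, star w * w = p ∧ w * star w = q := by
  obtain ⟨w, h1, h2⟩ := compare hp hq h.le
  have h3 : IsStarProjection (w * star w) := proj_mul_star (by rw [h1]; exact hp)
  refine ⟨w, h1, (sub_eq_zero.1 (proj_eq_zero
    (h3.sub_of_mul_eq_right hq (by rw [← mul_assoc, h2])) ?_)).symm⟩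
  rw [sz_sub, sz_comm, h1, h, sub_self]

end Vale.Agent.P085
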