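import Vale.Agent.P085.Split

/-! Local quantization: small corners in which finitely many elements look scalar. -/

open Filter Topology
open scoped InnerProductSpace ComplexOrder ComplexConjugate

namespace Vale.Agent.P085

lemma signs {H I : Type*} [AddCommGroup H] [Module ℂ H] (N : H → ℝ)
    (hpar : ∀ x y, N (x + y) + N (x - y) = 2 * N x + 2 * N y) (hN : ∀ x, 0 ≤ N x)
    (y : I → I → H) (hy : ∀ i, y i i = 0) (s : Finset I) : ∀ (c : H) (b : I → H),
    ∃ σ : I → ℂ, (∀ i, σ i = 1 ∨ σ i = -1) ∧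
      N (c + ∑ j ∈ s, σ j • b j + ∑ j ∈ s, ∑ k ∈ s, (σ j * σ k) • y j k) ≤
        N c + ∑ j ∈ s, N (b j) + 2 * ∑ j ∈ s, ∑ k ∈ s, N (y j k) := by
  classical
  induction s using Finset.induction_on with
  | empty => exact fun c b => ⟨fun _ => 1, fun _ => Or.inl rfl, by simp⟩
  | insert i s hi ih =>
    intro c b
    have hsum : (N (c + b i) + ∑ j ∈ s, N (b j + (y i j + y j i))) +
        (N (c - b i) + ∑ j ∈ s, N (b j - (y i j + y j i))) ≤
        2 * (N c + N (b i) + ∑ j ∈ s, N (b j) +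
          2 * (∑ j ∈ s, N (y i j) + ∑ j ∈ s, N (y j i))) := by
      have h1 : ∑ j ∈ s, (N (b j + (y i j + y j i)) + N (b j - (y i j + y j i))) ≤
          ∑ j ∈ s, (2 * N (b j) + 4 * N (y i j) + 4 * N (y j i)) :=
        Finset.sum_le_sum fun j _ => by
          linarith [hpar (b j) (y i j + y j i), hpar (y i j) (y j i), hN (y i j - y j i)]
      simp only [Finset.sum_add_distrib, ← Finset.mul_sum] at h1
      linarith [hpar c (b i)]
    obtain ⟨t, ht, ht'⟩ : ∃ t : ℂ, (t = 1 ∨ t = -1) ∧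
        N (c + t • b i) + ∑ j ∈ s, N (b j + t • (y i j + y j i)) ≤
          N c + N (b i) + ∑ j ∈ s, N (b j) + 2 * (∑ j ∈ s, N (y i j) + ∑ j ∈ s, N (y j i)) := by
      rcases le_total (N (c + b i) + ∑ j ∈ s, N (b j + (y i j + y j i)))
        (N (c - b i) + ∑ j ∈ s, N (b j - (y i j + y j i))) with h | h
      · exact ⟨1, Or.inl rfl, by simp only [one_smul]; linarith⟩
      · exact ⟨-1, Or.inr rfl, by simp only [neg_smul, one_smul, ← sub_eq_add_neg]; linarith⟩
    obtain ⟨σ, hσ, hσ'⟩ := ih (c + t • b i) fun j => b j + t • (y i j + y j i)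
    refine ⟨Function.update σ i t, fun j => ?_, ?_⟩
    · by_cases h : j = i
      · rw [h, Function.update_self]; exact ht
      · rw [Function.update_of_ne h]; exact hσ j
    have hu : ∀ j ∈ s, Function.update σ i t j = σ j := fun j hj =>
      Function.update_of_ne (ne_of_mem_of_not_mem hj hi) _ _
    have e1 : c + ∑ j ∈ insert i s, Function.update σ i t j • b j + ∑ j ∈ insert i s,
        ∑ k ∈ insert i s, (Function.update σ i t j * Function.update σ i t k) • y j k =
        c + t • b i + ∑ j ∈ s, σ j • (b j + t • (y i j + y j i)) +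
          ∑ j ∈ s, ∑ k ∈ s, (σ j * σ k) • y j k := by
      simp only [Finset.sum_insert hi, Function.update_self, hy, smul_zero, zero_add]
      rw [Finset.sum_congr rfl (fun j hj => by rw [hu j hj] :
          ∀ j ∈ s, Function.update σ i t j • b j = σ j • b j),
        Finset.sum_congr rfl (fun j hj => by rw [hu j hj] :
          ∀ j ∈ s, (t * Function.update σ i t j) • y i j = (t * σ j) • y i j),
        Finset.sum_congr rfl (fun j hj => by
          rw [hu j hj, Finset.sum_congr rfl fun k hk => by rw [hu k hk]] :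
          ∀ j ∈ s, (Function.update σ i t j * t) • y j i +
            ∑ k ∈ s, (Function.update σ i t j * Function.update σ i t k) • y j k =
            (σ j * t) • y j i + ∑ k ∈ s, (σ j * σ k) • y j k)]
      simp only [smul_add, Finset.sum_add_distrib, smul_smul, mul_comm t]
      abel
    have N0 : N 0 = 0 := by
      have := hpar 0 0
      rw [add_zero, sub_zero] at this
      linarith
    rw [e1]
    simp only [Finset.sum_insert hi, hy, N0, zero_add, Finset.sum_add_distrib]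
    linarith

variable {A : Type*} [CStarAlgebra A] [Tr A]

lemma sum_norm_sq_mul {ι : Type*} [Fintype ι] {b : ι → A}
    (hf : IsStarProjection (∑ i, b i * star (b i))) (x : A) :
    ∑ i, ‖v (x * b i)‖ ^ 2 ≤ ‖v x‖ ^ 2 := by
  have h1 : ∑ i, ‖v (x * b i)‖ ^ 2 = ‖v (x * ∑ i, b i * star (b i))‖ ^ 2 := by
    rw [norm_v_sq_sz, star_mul, proj_star hf, mul_assoc, sz_comm, mul_assoc, mul_assoc,
      proj_mul hf, ← mul_assoc, Finset.mul_sum, sz_sum]
    refine Finset.sum_congr rfl fun i _ => ?_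
    rw [norm_v_sq_sz, star_mul, mul_assoc, sz_comm]
    simp only [mul_assoc]
  rw [h1]
  exact pow_le_pow_left₀ (norm_nonneg _) (norm_v_mul_le_of_right hf.norm_le _) 2

lemma norm_v_of {a e : A} (h : star a * a = e) : ‖v a‖ ^ 2 = sz e := by rw [norm_v_sq_sz, h]

variable [Two A]

lemma greedy_cu {e : A} (he : IsStarProjection e) {J I : Type*} [Fintype J] (x : J → I → A)
    (hx : ∀ j i, τ (x j i * e) = 0) {κ : ℝ} (hκ : 0 < κ) (s : Finset I) :
    ∃ u : I → A, (∀ i, CU e (u i)) ∧ ∑ j, ‖v (∑ i ∈ s, star (u i) * x j i * u i)‖ ^ 2 ≤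
      ∑ i ∈ s, (∑ j, ‖v (x j i)‖ ^ 2 + 2 * κ) := by
  classical
  induction s using Finset.induction_on with
  | empty => exact ⟨fun _ => e, fun _ => CU.self he, by simp⟩
  | insert i s hi ih =>
    obtain ⟨u, hu, hu'⟩ := ih
    obtain ⟨w, hw, hw'⟩ := exists_cu_small he (fun j => ∑ i ∈ s, star (u i) * x j i * u i)
      (fun j => x j i) (fun j => hx j i) hκ
    refine ⟨Function.update u i w, fun j => ?_, ?_⟩
    · by_cases h : j = i
      · rw [h, Function.update_self]; exact hw
      · rw [Function.update_of_ne h]; exact hu j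
    have e1 : ∀ j, ∑ k ∈ insert i s, star (Function.update u i w k) * x j k *
        Function.update u i w k = ∑ k ∈ s, star (u k) * x j k * u k + star w * x j i * w := by
      intro j
      rw [Finset.sum_insert hi, Function.update_self, add_comm]
      congr 1
      exact Finset.sum_congr rfl fun k hk => by
        rw [Function.update_of_ne (ne_of_mem_of_not_mem hk hi)]
    have e2 : ∀ j ∈ Finset.univ,
        ‖v (∑ k ∈ s, star (u k) * x j k * u k + star w * x j i * w)‖ ^ 2 ≤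
          ‖v (∑ k ∈ s, star (u k) * x j k * u k)‖ ^ 2 +
          2 * (⟪v (∑ k ∈ s, star (u k) * x j k * u k), v (star w * x j i * w)⟫_ℂ).re +
          ‖v (x j i)‖ ^ 2 := by
      intro j _
      rw [map_add, norm_add_sq (𝕜 := ℂ)]
      have h3 : ‖v (star w * x j i * w)‖ ≤ ‖v (x j i)‖ := (Avg.ad w hw).norm_v_le he _
      have h4 := pow_le_pow_left₀ (norm_nonneg _) h3 2
      simp only [RCLike.re_to_complex]
      linarith
    simp only [e1]
    refine (Finset.sum_le_sum e2).trans ?_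
    rw [Finset.sum_insert hi, Finset.sum_add_distrib, Finset.sum_add_distrib, ← Finset.mul_sum]
    linarith

lemma quant_diag {e f : A} (he : IsStarProjection e) (hf : IsStarProjection f) (he0 : 0 < sz e)
    {m : ℕ} (hfe : sz f = m * sz e) {J : Type*} [Fintype J] (y : J → A) (hy : ∀ j, ‖y j‖ ≤ 1) :
    ∃ b : Fin m → A, (∀ i, star (b i) * b i = e) ∧ (∀ i k, i ≠ k → star (b i) * b k = 0) ∧
      ∑ i, b i * star (b i) = f ∧
      ∑ j, ‖v (∑ i, star (b i) * y j * b i - (τ (y j * f) / (sz e : ℝ)) • e)‖ ^ 2 ≤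
        (4 * Fintype.card J + 2) * (m * sz e) := by
  obtain ⟨a, a1, a2, a3⟩ := decomp he m hf hfe
  have ae : ∀ i, a i * e = a i := fun i => by
    have := pi_mul (a := a i) (by rw [a1]; exact he)
    rwa [a1] at this
  have an : ∀ i, ‖a i‖ ≤ 1 := fun i => norm_le_one_of_proj (by rw [a1]; exact he)
  have hse : ((sz e : ℝ) : ℂ) ≠ 0 := Complex.ofReal_ne_zero.2 he0.ne'
  obtain ⟨lam, hlam⟩ : ∃ lam : J → Fin m → ℂ,
      ∀ j i, lam j i = τ (star (a i) * y j * a i) / (sz e : ℝ) := ⟨_, fun _ _ => rfl⟩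
  have hve := proj_sq he
  have hz : ∀ j i, ‖v (star (a i) * y j * a i)‖ ≤ ‖v e‖ := fun j i => by
    refine (norm_v_mul_le_of_left (norm_mul_le_one (by rw [norm_star]; exact an i) (hy j))
      _).trans (le_of_eq ?_)
    rw [← sq_eq_sq₀ (norm_nonneg _) (norm_nonneg _), norm_v_of (a1 i), hve]
  have hlam1 : ∀ j i, ‖lam j i‖ ≤ 1 := fun j i => by
    have := norm_τ_mul_le (star (a i) * y j * a i) e
    rw [mul_assoc _ (a i), ae] at this
    rw [hlam, norm_div, Complex.norm_real, Real.norm_of_nonneg he0.le, div_le_one he0, ← hve, sq]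
    exact this.trans (mul_le_mul_of_nonneg_right (hz j i) (norm_nonneg _))
  obtain ⟨u, hu, hu'⟩ := greedy_cu he (fun j i => star (a i) * y j * a i - lam j i • e)
    (fun j i => by
      rw [sub_mul, mul_assoc _ (a i), ae, smul_mul_assoc, proj_mul he, map_sub, map_smul,
        τ_proj he, smul_eq_mul, hlam, div_mul_cancel₀ _ hse, sub_self]) he0 Finset.univ
  refine ⟨fun i => a i * u i, fun i => ?_, fun i k h => ?_, ?_, ?_⟩
  · rw [star_mul, mul_assoc, ← mul_assoc (star (a i)), a1, (hu i).e_mul he, (hu i).1]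
  · rw [star_mul, mul_assoc, ← mul_assoc (star (a i)), a2 i k h, zero_mul, mul_zero]
  · rw [← a3]
    refine Finset.sum_congr rfl fun i _ => ?_
    rw [star_mul, mul_assoc, ← mul_assoc (u i), (hu i).2, ← mul_assoc, ae]
  have t1 : ∑ i : Fin m, (∑ j, ‖v (star (a i) * y j * a i - lam j i • e)‖ ^ 2 + 2 * sz e) ≤
      ∑ i : Fin m, (∑ j : J, 4 * sz e + 2 * sz e) := by
    refine Finset.sum_le_sum fun i _ => add_le_add_left (Finset.sum_le_sum fun j _ => ?_) _
    have h1 : ‖v (star (a i) * y j * a i - lam j i • e)‖ ≤ 2 * ‖v e‖ := by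
      rw [map_sub, map_smul]
      refine (norm_sub_le _ _).trans ?_
      rw [norm_smul]
      nlinarith [hz j i, hlam1 j i, norm_nonneg (v e)]
    have := pow_le_pow_left₀ (norm_nonneg _) h1 2
    rw [mul_pow, hve] at this
    linarith
  simp only [Finset.sum_const, Finset.card_univ, Fintype.card_fin, nsmul_eq_mul] at t1
  refine le_trans (le_of_eq ?_) (hu'.trans (t1.trans (le_of_eq (by ring))))
  refine Finset.sum_congr rfl fun j _ => ?_
  have l1 : τ (y j * f) / (sz e : ℝ) = ∑ i, lam j i := by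
    simp only [hlam, ← Finset.sum_div, ← a3, Finset.mul_sum, map_sum]
    congr 1
    exact Finset.sum_congr rfl fun i _ => by rw [← mul_assoc, τ_comm, mul_assoc]
  rw [l1, Finset.sum_smul, ← Finset.sum_sub_distrib]
  congr 3
  refine Finset.sum_congr rfl fun i _ => ?_
  rw [mul_sub, sub_mul, mul_smul_comm, smul_mul_assoc, (hu i).star'.mul_e he, (hu i).1]
  simp only [star_mul, mul_assoc]

omit [Tr A] [Two A] in
lemma sign_expand {I : Type*} [Fintype I] [DecidableEq I] {σ : I → ℂ}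
    (hσ : ∀ i, σ i = 1 ∨ σ i = -1) (b : I → A) (z : A) :
    star (∑ i, σ i • b i) * z * (∑ i, σ i • b i) = ∑ i, star (b i) * z * b i +
      ∑ i, ∑ k, (σ i * σ k) • (if i = k then 0 else star (b i) * z * b k) := by
  have σ1 : ∀ i, σ i * σ i = 1 := fun i => by rcases hσ i with h | h <;> simp [h]
  have σ2 : ∀ i, star (σ i) = σ i := fun i => by rcases hσ i with h | h <;> simp [h]
  rw [star_sum, Finset.sum_mul, Finset.sum_mul_sum, ← Finset.sum_add_distrib]
  refine Finset.sum_congr rfl fun i _ => ?_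
  rw [← Finset.add_sum_erase _ _ (Finset.mem_univ i),
    ← Finset.add_sum_erase _ _ (Finset.mem_univ i), if_pos rfl, smul_zero, zero_add,
    star_smul, σ2, smul_mul_assoc, smul_mul_smul_comm, σ1, one_smul]
  congr 1
  refine Finset.sum_congr rfl fun k hk => ?_
  rw [if_neg (Finset.ne_of_mem_erase hk).symm, smul_mul_smul_comm]

omit [Two A] in
lemma quant_signs {e : A} (he : IsStarProjection e) {m : ℕ} {b : Fin m → A}
    (b1 : ∀ i, star (b i) * b i = e) (b2 : ∀ i k, i ≠ k → star (b i) * b k = 0)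
    {J : Type*} [Fintype J] (y x c : J → A) (hy : ∀ j, ‖y j‖ ≤ 1)
    (hx : ∀ j, ‖v (x j)‖ ^ 2 ≤ sz e) :
    ∃ W, star W * W = (m : ℂ) • e ∧ (∑ i, b i * star (b i)) * W = W ∧
      ∑ j, ‖v (star W * y j * W - c j)‖ ^ 2 + m * ∑ j, ‖v (x j * W)‖ ^ 2 ≤
        ∑ j, ‖v (∑ i, star (b i) * y j * b i - c j)‖ ^ 2 + 3 * Fintype.card J * (m * sz e) := by
  classical
  have b4 := sum_proj he b1 b2
  have hmR : (0 : ℝ) ≤ m := Nat.cast_nonneg m
  obtain ⟨σ, hσ, hσ'⟩ := signs (H := (J → A) × (J → A))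
    (fun p => ∑ j, ‖v (p.1 j)‖ ^ 2 + m * ∑ j, ‖v (p.2 j)‖ ^ 2)
    (fun p q => by
      have h1 : ∀ p q : J → A, ∑ j, ‖v ((p + q) j)‖ ^ 2 + ∑ j, ‖v ((p - q) j)‖ ^ 2 =
          2 * ∑ j, ‖v (p j)‖ ^ 2 + 2 * ∑ j, ‖v (q j)‖ ^ 2 := fun p q => by
        simp only [Finset.mul_sum, ← Finset.sum_add_distrib, Pi.add_apply, Pi.sub_apply, map_add,
          map_sub]
        exact Finset.sum_congr rfl fun j _ => by
          linarith [parallelogram_law_with_norm ℂ (v (p j)) (v (q j))]
      simp only [Prod.fst_add, Prod.snd_add, Prod.fst_sub, Prod.snd_sub]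
      linear_combination h1 p.1 q.1 + m * h1 p.2 q.2)
    (fun p => by positivity)
    (fun i k => (fun j => if i = k then 0 else star (b i) * y j * b k, 0))
    (fun i => by simp only [if_true]; rfl) Finset.univ
    (fun j => ∑ i, star (b i) * y j * b i - c j, 0)
    (fun i => (0, fun j => x j * b i))
  refine ⟨∑ i, σ i • b i, ?_, ?_, ?_⟩
  · have := sign_expand hσ b 1
    simp only [mul_one] at this
    rw [this, Finset.sum_eq_zero (s := Finset.univ) (f := fun i => ∑ k, (σ i * σ k) •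
      (if i = k then 0 else star (b i) * b k)) fun i _ => Finset.sum_eq_zero fun k _ => by
        split_ifs with h
        · exact smul_zero _
        · rw [b2 i k h, smul_zero]]
    simp [b1, Nat.cast_smul_eq_nsmul]
  · rw [Finset.mul_sum]
    exact Finset.sum_congr rfl fun i _ => by rw [mul_smul_comm, sum_proj_mul he b1 b2]
  have t2 : ∑ i : Fin m, (m : ℝ) * ∑ j, ‖v (x j * b i)‖ ^ 2 ≤ m * ∑ j : J, sz e := by
    rw [← Finset.mul_sum, Finset.sum_comm]
    exact mul_le_mul_of_nonneg_left (Finset.sum_le_sum fun j _ =>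
      (sum_norm_sq_mul b4 _).trans (hx j)) hmR
  have t3 : ∑ i : Fin m, ∑ k : Fin m, ∑ j,
      ‖v (if i = k then 0 else star (b i) * y j * b k)‖ ^ 2 ≤ ∑ i : Fin m, ∑ j : J, sz e := by
    refine Finset.sum_le_sum fun i _ => ?_
    rw [Finset.sum_comm]
    refine Finset.sum_le_sum fun j _ => ?_
    refine le_trans (Finset.sum_le_sum fun k _ => ?_)
      ((sum_norm_sq_mul b4 (star (b i) * y j)).trans ?_)
    · split_ifs
      · simp
      · exact le_rfl
    · rw [← norm_v_of (b1 i), ← norm_v_star (b i)]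
      exact pow_le_pow_left₀ (norm_nonneg _) (norm_v_mul_le_of_right (hy j) _) 2
  simp only [Finset.sum_const, Finset.card_univ, Fintype.card_fin, nsmul_eq_mul] at t2 t3
  simp only [Prod.fst_add, Prod.snd_add, Prod.fst_sum, Prod.snd_sum, Prod.smul_fst,
    Prod.smul_snd, Pi.add_apply, Finset.sum_apply, Pi.smul_apply, smul_zero,
    Finset.sum_const_zero, add_zero, zero_add, Pi.zero_apply, map_zero, norm_zero, ne_eq,
    OfNat.ofNat_ne_zero, not_false_eq_true, zero_pow, mul_zero] at hσ'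
  have e1 : ∀ j, x j * ∑ i, σ i • b i = ∑ i, σ i • (x j * b i) := fun j => by
    simp only [Finset.mul_sum, mul_smul_comm]
  simp only [sign_expand hσ, e1, add_sub_right_comm]
  linarith

lemma quant_one {e f : A} (he : IsStarProjection e) (hf : IsStarProjection f) (he0 : 0 < sz e)
    {m : ℕ} (hm : 0 < m) (hfe : sz f = m * sz e) {J : Type*} [Fintype J] (y x : J → A)
    (hy : ∀ j, ‖y j‖ ≤ 1) (hx : ∀ j, ‖v (x j)‖ ^ 2 ≤ sz e) :
    ∃ V, star V * V = e ∧ f * V = V ∧ ∀ j,
      ‖v (star V * y j * V - (τ (y j * f) / (sz f : ℝ)) • e)‖ ^ 2 ≤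
        (7 * Fintype.card J + 2) / m * sz e ∧
      ‖v (x j * V)‖ ^ 2 ≤ (7 * Fintype.card J + 2) / m * sz e := by
  obtain ⟨b, b1, b2, b3, b4⟩ := quant_diag he hf he0 hfe y hy
  obtain ⟨W, hW1, hW2, hT⟩ := quant_signs he b1 b2 y x
    (fun j => (τ (y j * f) / (sz e : ℝ)) • e) hy hx
  have hse : ((sz e : ℝ) : ℂ) ≠ 0 := Complex.ofReal_ne_zero.2 he0.ne'
  have hmR : (0 : ℝ) < m := Nat.cast_pos.2 hm
  have hmC : (m : ℂ) ≠ 0 := Nat.cast_ne_zero.2 hm.ne'
  obtain ⟨r, hr⟩ : ∃ r : ℂ, r = (((√m)⁻¹ : ℝ) : ℂ) := ⟨_, rfl⟩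
  have r1 : star r = r := by rw [hr, Complex.star_def, Complex.conj_ofReal]
  have r2 : r * r = (m : ℂ)⁻¹ := by
    rw [hr, ← Complex.ofReal_mul, ← mul_inv, Real.mul_self_sqrt hmR.le]; simp
  have r3 : ‖r‖ ^ 2 = (m : ℝ)⁻¹ := by
    rw [sq, ← norm_mul, r2]; simp
  have n1 : 0 ≤ ∑ j, ‖v (star W * y j * W - (τ (y j * f) / (sz e : ℝ)) • e)‖ ^ 2 := by positivity
  have n2 : 0 ≤ m * ∑ j, ‖v (x j * W)‖ ^ 2 := by positivity
  refine ⟨r • W, ?_, ?_, fun j => ⟨?_, ?_⟩⟩
  · rw [star_smul, r1, smul_mul_smul_comm, r2, hW1, smul_smul, inv_mul_cancel₀ hmC, one_smul]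
  · rw [mul_smul_comm, ← b3, hW2]
  · have e1 : star (r • W) * y j * (r • W) - (τ (y j * f) / (sz f : ℝ)) • e =
        (m : ℂ)⁻¹ • (star W * y j * W - (τ (y j * f) / (sz e : ℝ)) • e) := by
      rw [star_smul, r1, smul_mul_assoc, smul_mul_smul_comm, r2, smul_sub, smul_smul, hfe]
      congr 2
      push_cast
      field_simp
    have e2 := Finset.single_le_sum (f := fun j =>
      ‖v (star W * y j * W - (τ (y j * f) / (sz e : ℝ)) • e)‖ ^ 2) (fun _ _ => by positivity)
      (Finset.mem_univ j)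
    rw [e1, map_smul, norm_smul, mul_pow, norm_inv, Complex.norm_natCast]
    calc _ ≤ (m : ℝ)⁻¹ ^ 2 * ((7 * Fintype.card J + 2) * (m * sz e)) :=
          mul_le_mul_of_nonneg_left (by linarith) (by positivity)
      _ = _ := by field_simp
  · have e2 := Finset.single_le_sum (f := fun j => ‖v (x j * W)‖ ^ 2) (fun _ _ => by positivity)
      (Finset.mem_univ j)
    have e3 := mul_le_mul_of_nonneg_left e2 hmR.le
    rw [mul_smul_comm, map_smul, norm_smul, mul_pow, r3]
    calc _ = (m : ℝ)⁻¹ ^ 2 * (m * ‖v (x j * W)‖ ^ 2) := by field_simp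
      _ ≤ (m : ℝ)⁻¹ ^ 2 * ((7 * Fintype.card J + 2) * (m * sz e)) :=
          mul_le_mul_of_nonneg_left (by linarith) (by positivity)
      _ = _ := by field_simp

lemma quant {e : A} (he : IsStarProjection e) (he0 : 0 < sz e) {m : ℕ} (hm : 0 < m)
    {X J : Type*} [Fintype X] [Fintype J] {f : X → A} (hf : ∀ x, IsStarProjection (f x))
    (hfe : ∀ x, sz (f x) = m * sz e) (y : J → A) (hy : ∀ j, ‖y j‖ ≤ 1) {η : ℝ} (hη : 0 ≤ η)
    (hmη : (7 * Fintype.card (J × X × Bool) + 2) / m ≤ η ^ 2) :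
    ∃ U : X → A, (∀ x, star (U x) * U x = e ∧ f x * U x = U x ∧ ∀ j,
      ‖v (star (U x) * y j * U x - (τ (y j * f x) / (sz (f x) : ℝ)) • e)‖ ≤ η * ‖v e‖) ∧
      ∀ x x', x ≠ x' → ∀ j, ‖v (star (U x) * y j * U x')‖ ≤ η * ‖v e‖ := by
  classical
  have conv : ∀ z : A, ‖v z‖ ^ 2 ≤ (7 * Fintype.card (J × X × Bool) + 2) / m * sz e →
      ‖v z‖ ≤ η * ‖v e‖ := fun z hz => by
    rw [← sq_le_sq₀ (norm_nonneg _) (by positivity), mul_pow, proj_sq he]
    exact hz.trans (mul_le_mul_of_nonneg_right hmη he0.le)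
  have key : ∀ S : Finset X, ∃ U : X → A, (∀ x ∈ S, star (U x) * U x = e ∧ f x * U x = U x ∧ ∀ j,
      ‖v (star (U x) * y j * U x - (τ (y j * f x) / (sz (f x) : ℝ)) • e)‖ ≤ η * ‖v e‖) ∧
      ∀ x ∈ S, ∀ x' ∈ S, x ≠ x' → ∀ j, ‖v (star (U x) * y j * U x')‖ ≤ η * ‖v e‖ := by
    intro S
    induction S using Finset.induction_on with
    | empty => exact ⟨fun _ => 0, by simp, by simp⟩
    | insert x₀ S hx₀ ih =>
      obtain ⟨U, h1, h2⟩ := ih
      obtain ⟨V, v1, v2, v3⟩ := quant_one he (hf x₀) he0 hm (hfe x₀) (J := J × X × Bool)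
        (fun p => y p.1)
        (fun p => if p.2.1 ∈ S then star (U p.2.1) * (if p.2.2 then y p.1 else star (y p.1)) else 0)
        (fun p => hy p.1) (fun p => by
          by_cases hp : p.2.1 ∈ S
          · rw [if_pos hp, ← norm_v_of (h1 _ hp).1, ← norm_v_star (U _)]
            refine pow_le_pow_left₀ (norm_nonneg _) (norm_v_mul_le_of_right ?_ _) 2
            split_ifs
            · exact hy _
            · rw [norm_star]; exact hy _
          · simp [hp, he0.le])
      have hu : ∀ x ∈ S, Function.update U x₀ V x = U x := fun x hx =>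
        Function.update_of_ne (ne_of_mem_of_not_mem hx hx₀) _ _
      refine ⟨Function.update U x₀ V, fun x hx => ?_, fun x hx x' hx' hne j => ?_⟩
      · rcases Finset.mem_insert.1 hx with rfl | hx
        · rw [Function.update_self]
          exact ⟨v1, v2, fun j => conv _ (v3 (j, x, true)).1⟩
        · rw [hu x hx]; exact h1 x hx
      · rcases Finset.mem_insert.1 hx with rfl | hy1 <;>
          rcases Finset.mem_insert.1 hx' with rfl | hy2
        · exact (hne rfl).elim
        · rw [Function.update_self, hu x' hy2, ← norm_v_star]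
          have := conv _ (v3 (j, x', false)).2
          simpa [hy2, mul_assoc] using this
        · rw [Function.update_self, hu x hy1]
          have := conv _ (v3 (j, x, true)).2
          simpa [hy1] using this
        · rw [hu x hy1, hu x' hy2]; exact h2 x hy1 x' hy2 hne j
  obtain ⟨U, h1, h2⟩ := key Finset.univ
  exact ⟨U, fun x => h1 x (Finset.mem_univ _),
    fun x x' => h2 x (Finset.mem_univ _) x' (Finset.mem_univ _)⟩

end Vale.Agent.P085
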