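import Vale.Agent.P085.Proj

/-! Projections of prescribed trace and matrix decompositions. -/

open Filter Topology
open scoped InnerProductSpace ComplexOrder ComplexConjugate

namespace Vale.Agent.P085

variable {A : Type*} [CStarAlgebra A] [Tr A] [Two A]

section Minimal

variable {p : A} (hp : IsStarProjection p)
  (hmin : ∀ e, IsStarProjection e → e ≠ 0 → p * e = e → e = p)

include hp hmin

lemma min_isometry {x : A} (h2 : x * p = x) :
    star x * x = ((‖x‖ ^ 2 : ℝ) : ℂ) • p := by
  by_cases hx : x = 0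
  · simp [hx]
  have key : ∀ y : A, ‖y‖ = 1 → y * p = y → star y * y = p := by
    intro y hy h2
    rw [← sub_eq_zero, ← norm_le_zero_iff]
    refine le_of_forall_pos_le_add fun ε hε => ?_
    obtain ⟨w, w1, w2, -, w4, w5⟩ := exists_pi hy (c := 1 - min ε (1 / 2))
      (by linarith [min_le_right ε (1 / 2)]) (by
        have : 0 < min ε (1 / 2) := lt_min hε (by norm_num)
        linarith)
    have w6 := mul_of_star (w4 p hp h2)
    rw [proj_star hp] at w6
    rw [hmin _ w1 w2 (by rw [← mul_assoc, w6]), mul_assoc, h2] at w5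
    linarith [min_le_left ε (1 / 2)]
  have := key _ (norm_normalize hx) (by rw [smul_mul_assoc, h2])
  rw [star_smul, smul_mul_smul_comm, Complex.star_def, Complex.conj_ofReal] at this
  rw [← this, smul_smul, ← Complex.ofReal_mul, ← Complex.ofReal_mul]
  have hn := norm_ne_zero_iff.2 hx
  rw [show ‖x‖ ^ 2 * (‖x‖⁻¹ * ‖x‖⁻¹) = 1 by field_simp, Complex.ofReal_one, one_smul]

lemma min_scalar {x : A} (h1 : p * x = x) (h2 : x * p = x) : ∃ c : ℂ, x = c • p := by
  have key : ∀ y : A, p * y = y → y * p = y → ∃ c : ℂ, rp y = c • p := by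
    intro y h1 h2
    have a1 := mul_rp (proj_star hp) h1 h2
    have a2 := mul_of_star a1
    rw [rp_star, proj_star hp] at a2
    have a0 := rp_star y
    set z := rp y
    set r : ℂ := ((‖z‖ : ℝ) : ℂ) with hr
    have a3 := min_isometry hp hmin a2
    rw [a0] at a3
    have a4 : (z + r • p) * (z - r • p) = 0 := by
      rw [add_mul, mul_sub, mul_sub, mul_smul_comm, a2, smul_mul_assoc, a1, smul_mul_smul_comm,
        proj_mul hp, a3, hr, ← Complex.ofReal_mul, sq]
      abel
    have a5 := min_isometry hp hmin (x := z + r • p)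
      (by rw [add_mul, a2, smul_mul_assoc, proj_mul hp])
    have a6 : ((‖z + r • p‖ ^ 2 : ℝ) : ℂ) • (z - r • p) = 0 := by
      have : p * (z - r • p) = z - r • p := by rw [mul_sub, a1, mul_smul_comm, proj_mul hp]
      rw [← this, ← smul_mul_assoc, ← a5, mul_assoc, a4, mul_zero]
    rcases smul_eq_zero.1 a6 with h | h
    · rw [Complex.ofReal_eq_zero, pow_eq_zero_iff two_ne_zero, norm_eq_zero] at h
      exact ⟨-r, by rw [neg_smul]; exact eq_neg_of_add_eq_zero_left h⟩
    · exact ⟨r, sub_eq_zero.1 h⟩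
  obtain ⟨c, hc⟩ := key x h1 h2
  obtain ⟨d, hd⟩ := key ((-Complex.I) • x) (by rw [mul_smul_comm, h1])
    (by rw [smul_mul_assoc, h2])
  exact ⟨c + Complex.I * d, by rw [rp_decomp x, hc, hd, add_smul, smul_smul]⟩

end Minimal

omit [Tr A] [Two A] in
lemma sum_proj {ι : Type*} [Fintype ι] {e : A} (he : IsStarProjection e) {a : ι → A}
    (h1 : ∀ i, star (a i) * a i = e) (h2 : ∀ i j, i ≠ j → star (a i) * a j = 0) :
    IsStarProjection (∑ i, a i * star (a i)) := by
  refine ⟨?_, isSelfAdjoint_sum _ fun i _ => IsSelfAdjoint.mul_star_self _⟩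
  change _ * _ = _
  rw [Finset.sum_mul_sum]
  refine Finset.sum_congr rfl fun i _ => ?_
  rw [Finset.sum_eq_single i]
  · exact proj_mul (proj_mul_star (by rw [h1]; exact he))
  · intro j _ hj
    rw [mul_assoc, ← mul_assoc (star (a i)), h2 i j hj.symm, zero_mul, mul_zero]
  · simp

omit [Tr A] [Two A] in
lemma sum_proj_mul {ι : Type*} [Fintype ι] {e : A} (he : IsStarProjection e) {a : ι → A}
    (h1 : ∀ i, star (a i) * a i = e) (h2 : ∀ i j, i ≠ j → star (a i) * a j = 0) (j : ι) :
    (∑ i, a i * star (a i)) * a j = a j := by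
  rw [Finset.sum_mul, Finset.sum_eq_single j]
  · rw [mul_assoc]; exact pi_mul (by rw [h1]; exact he)
  · intro i _ hi
    rw [mul_assoc, h2 i j hi, mul_zero]
  · simp

lemma exists_sub {p : A} (hp : IsStarProjection p) (hp0 : p ≠ 0) :
    ∃ e, IsStarProjection e ∧ e ≠ 0 ∧ p * e = e ∧ e ≠ p := by
  classical
  by_contra hcon
  push Not at hcon
  let P : ℕ → Prop := fun n => ∃ a : Fin n → A, (∀ i, star (a i) * a i = p) ∧
    ∀ i j, i ≠ j → star (a i) * a j = 0
  have hsz := sz_pos hp hp0
  have hbd : ∀ n, P n → n * sz p ≤ 1 := by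
    rintro n ⟨a, h1, h2⟩
    have := sz_le_one (sum_proj hp h1 h2)
    rw [sz_sum] at this
    simpa [fun i => sz_comm (a i) (star (a i)), h1] using this
  have hex : ∃ n, ¬ P n := by
    obtain ⟨n, hn⟩ := exists_nat_gt (1 / sz p)
    rw [div_lt_iff₀ hsz] at hn
    exact ⟨n, fun h => by linarith [hbd n h]⟩
  have h0 : Nat.find hex ≠ 0 := fun h => Nat.find_spec hex (by
    rw [h]; exact ⟨Fin.elim0, fun i => i.elim0, fun i => i.elim0⟩)
  obtain ⟨n, hn⟩ := Nat.exists_eq_succ_of_ne_zero h0
  have hn1 : ¬ P (n + 1) := by have := Nat.find_spec hex; rwa [hn] at this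
  obtain ⟨a, h1, h2⟩ : P n := not_not.1 (Nat.find_min hex (by omega))
  have hs := sum_proj hp h1 h2
  have hone : ∑ i, a i * star (a i) = 1 := by
    by_contra hne
    obtain ⟨w, w1, w2, w3, w4⟩ := exists_link hp hs.one_sub hp0
      (fun h => hne (sub_eq_zero.1 h).symm)
    have w6 := mul_of_star w4
    rw [proj_star hp] at w6
    have w5 := hcon _ w1 w2 (by rw [← mul_assoc, w6])
    have o : ∀ i, star (a i) * w = 0 := fun i => by
      have := mul_of_star (sum_proj_mul hp h1 h2 i)
      rw [proj_star hs] at this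
      rw [← w3, ← mul_assoc, mul_sub, mul_one, this, sub_self, zero_mul]
    refine hn1 ⟨Fin.cons w a, fun i => ?_, fun i j hij => ?_⟩
    · refine Fin.cases ?_ (fun i => ?_) i
      · exact w5
      · exact h1 i
    · revert hij
      refine Fin.cases ?_ (fun i => ?_) i <;> refine Fin.cases ?_ (fun j => ?_) j <;> intro hij
      · exact (hij rfl).elim
      · simpa using mul_of_star (o j)
      · exact o i
      · exact h2 i j fun h => hij (by rw [h])
  refine Two.inf (A := A) ?_
  have hspan : Submodule.span ℂ (Set.range fun ij : Fin n × Fin n => a ij.1 * star (a ij.2))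
      = ⊤ := by
    refine Submodule.eq_top_iff'.2 fun x => ?_
    have e1 : x = ∑ i, ∑ j, a i * (star (a i) * x * a j) * star (a j) := by
      conv_lhs => rw [← one_mul x, ← mul_one x, ← hone, ← mul_assoc, Finset.sum_mul,
        Finset.sum_mul_sum]
      simp only [mul_assoc]
    rw [e1]
    refine Submodule.sum_mem _ fun i _ => Submodule.sum_mem _ fun j _ => ?_
    have q1 : ∀ i, a i * p = a i := fun i => by
      have := pi_mul (a := a i) (by rw [h1]; exact hp)
      rwa [h1] at this
    have q2 := mul_of_star (q1 i)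
    rw [proj_star hp] at q2
    obtain ⟨c, hc⟩ := min_scalar hp hcon (x := star (a i) * x * a j)
      (by rw [← mul_assoc, ← mul_assoc, q2]) (by rw [mul_assoc, q1])
    rw [hc, mul_smul_comm, smul_mul_assoc, q1]
    exact Submodule.smul_mem _ _ (Submodule.subset_span ⟨(i, j), rfl⟩)
  exact Module.Finite.of_fg_top (hspan ▸ Submodule.fg_span (Set.finite_range _))

lemma exists_small {p : A} (hp : IsStarProjection p) (hp0 : p ≠ 0) {δ : ℝ} (hδ : 0 < δ) :
    ∃ e, IsStarProjection e ∧ e ≠ 0 ∧ p * e = e ∧ sz e ≤ δ := by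
  have key : ∀ n : ℕ, ∃ e, IsStarProjection e ∧ e ≠ 0 ∧ p * e = e ∧ sz e ≤ (1 / 2) ^ n := by
    intro n
    induction n with
    | zero => exact ⟨p, hp, hp0, proj_mul hp, by simpa using sz_le_one hp⟩
    | succ n ih =>
      obtain ⟨e, h1, h2, h3, h4⟩ := ih
      obtain ⟨e', k1, k2, k3, k4⟩ := exists_sub h1 h2
      have k5 : p * e' = e' := by rw [← k3, ← mul_assoc, h3]
      rcases le_total (sz e') (sz e / 2) with h | h
      · exact ⟨e', k1, k2, k5, by rw [pow_succ]; linarith⟩
      · exact ⟨e - e', k1.sub_of_mul_eq_right h1 k3, fun h => k4 (sub_eq_zero.1 h).symm,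
          by rw [mul_sub, h3, k5], by rw [pow_succ, sz_sub]; linarith⟩
  obtain ⟨n, hn⟩ := exists_pow_lt_of_lt_one hδ (show (1 / 2 : ℝ) < 1 by norm_num)
  obtain ⟨e, h1, h2, h3, h4⟩ := key n
  exact ⟨e, h1, h2, h3, h4.trans hn.le⟩

lemma exists_sz {p : A} (hp : IsStarProjection p) {t : ℝ} (h0 : 0 ≤ t) (h1 : t ≤ sz p) :
    ∃ e, IsStarProjection e ∧ p * e = e ∧ sz e = t := by
  obtain ⟨w, -, ⟨w1, w2, w3, w4⟩, w5⟩ := exists_max_pi
    (fun w : A => star w = w ∧ star w * w = w ∧ p * w = w ∧ sz w ≤ t)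
    (fun x y hx hy => by
      have hb : ∀ n, ‖star (x n)‖ ≤ 1 := fun n => by
        have : IsStarProjection (x n) := ⟨by
          have := (hx n).2.1
          rwa [(hx n).1] at this, (hx n).1⟩
        rw [norm_star]; exact this.norm_le
      exact ⟨(hy.star.congr fun n => (hx n).1).unique hy,
        ((hy.star.mul hy hb).congr fun n => (hx n).2.1).unique hy,
        ((hy.mul_left p).congr fun n => (hx n).2.2.1).unique hy,
        le_of_tendsto' hy.tendsto_sz fun n => (hx n).2.2.2⟩) (by simpa [sz_zero] using h0)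
  have hw : IsStarProjection w := ⟨by rwa [w1] at w2, w1⟩
  refine ⟨w, hw, w3, le_antisymm w4 ?_⟩
  by_contra hlt
  push Not at hlt
  have hp' := hw.sub_of_mul_eq_right hp w3
  obtain ⟨e, e1, e2, e3, e4⟩ := exists_small hp' (fun h => by
    rw [sub_eq_zero.1 h] at h1; linarith) (sub_pos.2 hlt)
  have o1 : w * e = 0 := by
    rw [← e3, ← mul_assoc, mul_sub, proj_comm hp hw w3, proj_mul hw, sub_self, zero_mul]
  have o2 := mul_of_star o1
  rw [proj_star e1, w1, star_zero] at o2
  have o3 : p * e = e := by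
    rw [sub_mul, o1, sub_zero] at e3; exact e3
  have hs := hw.add e1 o1
  have a1 : star (w + e) * (w + e) = w + e := by rw [proj_star hs, proj_mul hs]
  have := w5 (w + e) (by rw [a1]; exact hs)
    ⟨proj_star hs, a1, by rw [mul_add, w3, o3], by rw [sz_add]; linarith⟩
    (by rw [w2, add_mul, proj_mul hw, o2, add_zero])
  rw [a1, w2, sz_add] at this
  linarith [sz_pos e1 e2]

lemma decomp {e : A} (he : IsStarProjection e) (n : ℕ) : ∀ {p : A}, IsStarProjection p →
    sz p = n * sz e → ∃ a : Fin n → A, (∀ i, star (a i) * a i = e) ∧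
      (∀ i j, i ≠ j → star (a i) * a j = 0) ∧ ∑ i, a i * star (a i) = p := by
  induction n with
  | zero =>
    intro p hp h
    exact ⟨Fin.elim0, fun i => i.elim0, fun i => i.elim0, by
      rw [proj_eq_zero hp (by simpa using h)]; simp⟩
  | succ n ih =>
    intro p hp h
    have := sz_nonneg he
    obtain ⟨w, w1, w2⟩ := compare he hp (by rw [h]; push_cast; nlinarith)
    have hw : IsStarProjection (star w * w) := by rw [w1]; exact he
    have hp' := (proj_mul_star hw).sub_of_mul_eq_right hp (by rw [← mul_assoc, w2])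
    obtain ⟨a, h1, h2, h3⟩ := ih hp' (by rw [sz_sub, sz_comm, w1, h]; push_cast; ring)
    have w3 := mul_of_star w2
    have w4 := mul_of_star (pi_mul hw)
    rw [proj_star hp] at w3
    rw [proj_star hw] at w4
    have o : ∀ i, star w * a i = 0 := fun i => by
      rw [← sum_proj_mul he h1 h2 i, h3, ← mul_assoc, mul_sub, w3, ← mul_assoc, w4, sub_self,
        zero_mul]
    refine ⟨Fin.cons w a, fun i => ?_, fun i j hij => ?_, ?_⟩
    · refine Fin.cases ?_ (fun i => ?_) i
      · exact w1
      · exact h1 i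
    · revert hij
      refine Fin.cases ?_ (fun i => ?_) i <;> refine Fin.cases ?_ (fun j => ?_) j <;> intro hij
      · exact (hij rfl).elim
      · exact o j
      · simpa using mul_of_star (o i)
      · exact h2 i j fun h => hij (by rw [h])
    · rw [Fin.sum_univ_succ]
      simp only [Fin.cons_zero, Fin.cons_succ, h3]
      abel

end Vale.Agent.P085
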