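import Vale.Agent.P085.Approx

/-! A tower of halved projections, and the abstract generation theorem. -/

open Filter Topology
open scoped InnerProductSpace ComplexOrder ComplexConjugate

namespace Vale.Agent.P085

variable {A : Type*} [CStarAlgebra A]

/-- A decreasing sequence of projections, each one equivalent to its complement in the previous
one. -/
structure Tower (r f : ℕ → A) : Prop where
  zero : r 0 = 1
  proj : ∀ k, IsStarProjection (r k)
  le : ∀ k, r k * r (k + 1) = r (k + 1)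
  left : ∀ k, star (f k) * f k = r k - r (k + 1)
  right : ∀ k, f k * star (f k) = r (k + 1)

namespace Tower

variable {r f : ℕ → A} (h : Tower r f)

include h

lemma mono {j k : ℕ} (hjk : j ≤ k) : r j * r k = r k := by
  induction hjk with
  | refl => exact proj_mul (h.proj j)
  | step _ ih => rw [← h.le, ← mul_assoc, ih]

lemma mono' {j k : ℕ} (hjk : j ≤ k) : r k * r j = r k :=
  proj_comm (h.proj j) (h.proj k) (h.mono hjk)

lemma dproj (k : ℕ) : IsStarProjection (r k - r (k + 1)) :=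
  (h.proj _).sub_of_mul_eq_right (h.proj k) (h.le k)

lemma f_d (k : ℕ) : f k * (r k - r (k + 1)) = f k := by
  have := pi_mul (a := f k) (by rw [h.left]; exact h.dproj k)
  rwa [h.left] at this

lemma r_f (k : ℕ) : r (k + 1) * f k = f k := by
  rw [← h.right, mul_assoc, h.left, h.f_d]

lemma sf_r (k : ℕ) : star (f k) * r (k + 1) = star (f k) := by
  have := mul_of_star (h.r_f k)
  rwa [proj_star (h.proj _)] at this

lemma d_sf (k : ℕ) : (r k - r (k + 1)) * star (f k) = star (f k) := by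
  have := mul_of_star (h.f_d k)
  rwa [proj_star (h.dproj _)] at this

lemma r_d {j k : ℕ} (hjk : j ≤ k) : r (k + 1) * (r j - r (j + 1)) = 0 := by
  rw [mul_sub, h.mono' (by omega), h.mono' (by omega), sub_self]

lemma d_r {j k : ℕ} (hjk : j ≤ k) : (r j - r (j + 1)) * r (k + 1) = 0 := by
  rw [sub_mul, h.mono (by omega), h.mono (by omega), sub_self]

lemma d_d {j k : ℕ} (hjk : j ≠ k) : (r j - r (j + 1)) * (r k - r (k + 1)) = 0 := by
  rcases lt_or_gt_of_ne hjk with hlt | hlt
  · obtain ⟨k, rfl⟩ := Nat.exists_eq_succ_of_ne_zero (by omega : k ≠ 0)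
    rw [mul_sub, h.d_r (by omega), h.d_r (by omega), sub_self]
  · obtain ⟨j, rfl⟩ := Nat.exists_eq_succ_of_ne_zero (by omega : j ≠ 0)
    rw [sub_mul, h.r_d (by omega), h.r_d (by omega), sub_self]

lemma f_d' {j k : ℕ} (hjk : j ≠ k) : f j * (r k - r (k + 1)) = 0 := by
  rw [← h.f_d j, mul_assoc, h.d_d hjk, mul_zero]

lemma cols (k : ℕ) : ∃ (S : Type) (_ : Fintype S) (g : S → A),
    (∀ s, ‖g s‖ ≤ 1 ∧ g s * r k = g s ∧
      ∀ N : StarSubalgebra ℂ A, (∀ j, r j ∈ N) → (∀ j, f j ∈ N) → g s ∈ N) ∧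
    ∑ s, g s * star (g s) = 1 := by
  induction k with
  | zero => exact ⟨Unit, inferInstance, fun _ => 1, fun _ => ⟨norm_one_le, by
      rw [h.zero, one_mul], fun N _ _ => one_mem N⟩, by simp⟩
  | succ k ih =>
    obtain ⟨S, _, g, h1, h2⟩ := ih
    refine ⟨S ⊕ S, inferInstance, Sum.elim (fun s => g s * r (k + 1))
      (fun s => g s * star (f k)), ?_, ?_⟩
    · rintro (s | s)
      · exact ⟨norm_mul_le_one (h1 s).1 (h.proj _).norm_le, by
          rw [Sum.elim_inl, mul_assoc, proj_mul (h.proj _)],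
          fun N k1 k2 => mul_mem ((h1 s).2.2 N k1 k2) (k1 _)⟩
      · exact ⟨norm_mul_le_one (h1 s).1 (norm_le_one_of_proj (by
          rw [star_star, h.right]; exact h.proj _)), by
          rw [Sum.elim_inr, mul_assoc, h.sf_r],
          fun N k1 k2 => mul_mem ((h1 s).2.2 N k1 k2) (star_mem (k2 _))⟩
    · rw [Fintype.sum_sum_type, ← Finset.sum_add_distrib, ← h2]
      refine Finset.sum_congr rfl fun s _ => ?_
      simp only [Sum.elim_inl, Sum.elim_inr, star_mul, star_star, proj_star (h.proj _)]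
      rw [mul_assoc, ← mul_assoc (r _), proj_mul (h.proj _), mul_assoc (g s),
        ← mul_assoc (star (f k)), h.left, ← mul_add, ← add_mul, add_sub_cancel, ← mul_assoc,
        (h1 s).2.1]

lemma exists_diag : ∃ a : A, star a = a ∧ ∀ N : StarSubalgebra ℂ A, IsClosed (N : Set A) →
    a ∈ N → ∀ k, r k ∈ N := by
  have hb : ∀ k j, ‖((1 / 4 : ℂ) ^ j) • (r (k + j) - r (k + j + 1))‖ ≤ (1 / 4 : ℝ) ^ j := by
    intro k j
    rw [norm_smul, norm_pow]
    simpa using mul_le_of_le_one_right (by positivity : (0 : ℝ) ≤ (4 ^ j)⁻¹) (h.dproj _).norm_le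
  have hg : HasSum (fun j : ℕ => (1 / 4 : ℝ) ^ j) (1 - 1 / 4)⁻¹ :=
    hasSum_geometric_of_lt_one (by norm_num) (by norm_num)
  have hs : ∀ k, Summable fun j => ((1 / 4 : ℂ) ^ j) • (r (k + j) - r (k + j + 1)) := fun k =>
    Summable.of_norm_bounded hg.summable (hb k)
  set a : ℕ → A := fun k => ∑' j, ((1 / 4 : ℂ) ^ j) • (r (k + j) - r (k + j + 1)) with ha
  have a1 : ∀ k, star (a k) = a k := fun k => by
    simp only [ha, tsum_star, star_smul, proj_star (h.dproj _), star_pow, star_div₀, star_one,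
      star_ofNat]
  have a2 : ∀ k, ‖a k‖ ≤ (1 - 1 / 4)⁻¹ := fun k => tsum_of_norm_bounded hg (hb k)
  have a3 : ∀ k, a k = (r k - r (k + 1)) + (1 / 4 : ℂ) • a (k + 1) := fun k => by
    simp only [ha]
    rw [(hs k).tsum_eq_zero_add, pow_zero, one_smul, ← (hs (k + 1)).tsum_const_smul]
    congr 1
    refine tsum_congr fun j => ?_
    rw [smul_smul, pow_succ', show k + (j + 1) = k + 1 + j by omega]
  have a4 : ∀ k, (r k - r (k + 1)) * a (k + 1) = 0 := fun k => by
    simp only [ha]
    rw [← (hs (k + 1)).tsum_mul_left]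
    simp only [mul_smul_comm, fun j => h.d_d (show k ≠ k + 1 + j by omega), smul_zero, tsum_zero]
  refine ⟨a 0, a1 0, fun N hN h0 => ?_⟩
  have step : ∀ k, a k ∈ N → r k - r (k + 1) ∈ N := by
    intro k hk
    have a5 := mul_of_star (a4 k)
    rw [a1, proj_star (h.dproj k), star_zero] at a5
    have e : ∀ n, a k ^ (n + 1) = (r k - r (k + 1)) + ((1 / 4 : ℂ) • a (k + 1)) ^ (n + 1) := by
      intro n
      induction n with
      | zero => simpa using a3 k
      | succ n ih =>
        rw [pow_succ, ih, a3 k, add_mul, mul_add, mul_add, proj_mul (h.dproj k), mul_smul_comm,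
          a4, smul_zero, add_zero, ← pow_succ, pow_succ _ n, mul_assoc, smul_mul_assoc, a5,
          smul_zero, mul_zero, zero_add]
    have t : Tendsto (fun n => ((1 / 4 : ℂ) • a (k + 1)) ^ (n + 1)) atTop (𝓝 0) :=
      (tendsto_add_atTop_iff_nat 1).2 (tendsto_pow_atTop_nhds_zero_of_norm_lt_one (by
        rw [norm_smul]
        have := a2 (k + 1)
        simp only [one_div, norm_inv, Complex.norm_ofNat] at this ⊢
        linarith))
    have t2 := t.const_add (r k - r (k + 1))
    rw [add_zero] at t2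
    exact hN.mem_of_tendsto t2 (Eventually.of_forall fun n => by
      rw [← e]; exact pow_mem hk _)
  have all : ∀ k, a k ∈ N ∧ r k ∈ N := by
    intro k
    induction k with
    | zero => exact ⟨h0, by rw [h.zero]; exact one_mem N⟩
    | succ k ih =>
      have d := step k ih.1
      constructor
      · have := SMulMemClass.smul_mem (4 : ℂ) (sub_mem ih.1 d)
        rwa [a3 k, add_sub_cancel_left, smul_smul, show (4 : ℂ) * (1 / 4) = 1 by norm_num,
          one_smul] at this
      · simpa using sub_mem ih.2 d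
  exact fun k => (all k).2

lemma exists_off {s : ℕ → A} (h1 : ∀ j, star (s j) = s j) (h2 : ∀ j, r (j + 1) * s j = s j) :
    ∃ b : A, star b = b ∧ ∀ N : StarSubalgebra ℂ A, b ∈ N → (∀ k, r k ∈ N) →
      ∀ k, f k ∈ N ∧ s k ∈ N := by
  set t : ℕ → A := fun j => f j + star (f j) + star (f j) * s j * f j with ht
  set c : ℕ → ℝ := fun j => (1 / 2) ^ j / (‖t j‖ + 1) with hc
  have c0 : ∀ j, 0 < c j := fun j => by positivity
  have hs : Summable fun j => (c j : ℂ) • t j :=
    Summable.of_norm_bounded summable_geometric_two fun j => by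
      rw [norm_smul, Complex.norm_real, Real.norm_of_nonneg (c0 j).le, hc, div_mul_eq_mul_div,
        div_le_iff₀ (by positivity)]
      gcongr
      linarith
  have cut : ∀ (p q : A) k, (∀ j, j ≠ k → p * t j * q = 0) →
      p * (∑' j, (c j : ℂ) • t j) * q = (c k : ℂ) • (p * t k * q) := by
    intro p q k hz
    rw [← hs.tsum_mul_left, ← (hs.mul_left p).tsum_mul_right, tsum_eq_single k]
    · rw [mul_smul_comm, smul_mul_assoc]
    · intro j hj
      rw [mul_smul_comm, smul_mul_assoc, hz j hj, smul_zero]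
  have t1 : ∀ j k, j ≠ k → t j * (r k - r (k + 1)) = star (f j) * (r k - r (k + 1)) := by
    intro j k hjk
    rw [ht, add_mul, add_mul, mul_assoc _ (f j), h.f_d' hjk, mul_zero, add_zero, zero_add]
  have t2 : ∀ k, t k * (r k - r (k + 1)) = f k + star (f k) * s k * f k := by
    intro k
    rw [ht, add_mul, add_mul, mul_assoc _ (f k), h.f_d, ← h.sf_r, mul_assoc _ (r _),
      h.r_d le_rfl, mul_zero, add_zero]
  refine ⟨∑' j, (c j : ℂ) • t j, ?_, fun N hb hr k => ?_⟩
  · simp only [tsum_star, star_smul, Complex.star_def, Complex.conj_ofReal, ht, star_add,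
      star_mul, star_star, h1, mul_assoc, add_comm (star (f _)) (f _)]
  have unsmul : ∀ y : A, (c k : ℂ) • y ∈ N → y ∈ N := fun y hy => by
    have := SMulMemClass.smul_mem (c k : ℂ)⁻¹ hy
    rwa [smul_smul, inv_mul_cancel₀ (Complex.ofReal_ne_zero.2 (c0 k).ne'), one_smul] at this
  have hd := sub_mem (hr k) (hr (k + 1))
  have m1 := mul_mem (mul_mem (hr (k + 1)) hb) hd
  have m2 := mul_mem (mul_mem hd hb) hd
  rw [cut _ _ k fun j hj => by
    rw [mul_assoc, t1 j k hj]
    rcases le_total j k with hle | hle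
    · rw [← h.d_sf j, ← mul_assoc, ← mul_assoc, h.r_d hle, zero_mul, zero_mul]
    · rw [← h.sf_r j, mul_assoc, h.r_d hle, mul_zero, mul_zero]] at m1
  rw [cut _ _ k fun j hj => by
    rw [mul_assoc, t1 j k hj, ← h.d_sf j, ← mul_assoc, ← mul_assoc, h.d_d hj.symm, zero_mul,
      zero_mul]] at m2
  have m3 := unsmul _ m1
  have m4 := unsmul _ m2
  rw [mul_assoc, t2, mul_add, h.r_f, ← h.d_sf k, ← mul_assoc, ← mul_assoc, ← mul_assoc,
    h.r_d le_rfl, zero_mul, zero_mul, zero_mul, add_zero] at m3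
  rw [mul_assoc, t2, mul_add, ← mul_assoc, ← mul_assoc, h.d_sf] at m4
  nth_rw 1 [← h.r_f k] at m4
  rw [← mul_assoc, h.d_r le_rfl, zero_mul, zero_add] at m4
  refine ⟨m3, ?_⟩
  have m5 := mul_mem (mul_mem m3 m4) (star_mem m3)
  have e1 := mul_of_star (h2 k)
  rw [h1, proj_star (h.proj _)] at e1
  rwa [← mul_assoc, ← mul_assoc, h.right, h2, mul_assoc, h.right, e1] at m5

lemma encode {s : ℕ → A} (h1 : ∀ j, star (s j) = s j) (h2 : ∀ j, r (j + 1) * s j = s j) :
    ∃ z : A, ∀ N : StarSubalgebra ℂ A, IsClosed (N : Set A) → z ∈ N →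
      (∀ k, r k ∈ N) ∧ (∀ k, f k ∈ N) ∧ ∀ k, s k ∈ N := by
  obtain ⟨a, a1, a2⟩ := h.exists_diag
  obtain ⟨b, b1, b2⟩ := h.exists_off h1 h2
  refine ⟨a + Complex.I • b, fun N hN hz => ?_⟩
  have e1 : rp (a + Complex.I • b) = a := by
    rw [rp, star_add, star_smul, a1, b1, Complex.star_def, Complex.conj_I]
    module
  have ha : a ∈ N := e1 ▸ rp_mem hz
  have hb : b ∈ N := by
    have := SMulMemClass.smul_mem (-Complex.I) (sub_mem hz ha)
    rwa [add_sub_cancel_left, smul_smul, neg_mul, Complex.I_mul_I, neg_neg, one_smul] at this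
  have hr := a2 N hN ha
  exact ⟨hr, fun k => (b2 N hb hr k).1, fun k => (b2 N hb hr k).2⟩

end Tower

variable [Tr A]

/-- Closedness in the `L²` norm. -/
def TwoClosed (N : StarSubalgebra ℂ A) : Prop :=
  ∀ (x : ℕ → A) y, (∀ n, x n ∈ N) → Conv x y → y ∈ N

lemma TwoClosed.isClosed {N : StarSubalgebra ℂ A} (h : TwoClosed N) : IsClosed (N : Set A) :=
  IsSeqClosed.isClosed fun x y hx hy => h x y hx (Conv.of_tendsto hy)

variable [Two A]

lemma exists_tower : ∃ r f : ℕ → A, Tower r f ∧ ∀ k, 0 < sz (r k) := by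
  have half : ∀ p : {p : A // IsStarProjection p ∧ 0 < sz p},
      ∃ (q : {p : A // IsStarProjection p ∧ 0 < sz p}) (f : A),
        p.1 * q.1 = q.1 ∧ star f * f = p.1 - q.1 ∧ f * star f = q.1 := by
    rintro ⟨p, hp, hp0⟩
    obtain ⟨q, q1, q2, q3⟩ := exists_sz hp (t := sz p / 2) (by linarith) (by linarith)
    obtain ⟨f, f1, f2⟩ := compare_eq (q1.sub_of_mul_eq_right hp q2) q1 (by rw [sz_sub]; linarith)
    exact ⟨⟨q, q1, by linarith⟩, f, q2, f1, f2⟩
  choose nx f h1 h2 h3 using half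
  let p₀ : {p : A // IsStarProjection p ∧ 0 < sz p} :=
    ⟨1, IsStarProjection.one A, by rw [sz_one]; exact one_pos⟩
  refine ⟨fun k => (nx^[k] p₀).1, fun k => f (nx^[k] p₀), ⟨rfl, fun k => (nx^[k] p₀).2.1,
    fun k => ?_, fun k => ?_, fun k => ?_⟩, fun k => (nx^[k] p₀).2.2⟩
  all_goals simp only [Function.iterate_succ_apply']
  · exact h1 _
  · exact h2 _
  · exact h3 _

theorem abstract_gen (x : ℕ → A) (hx : ∀ n, ‖x n‖ ≤ 1) :
    ∃ z : A, ∀ N : StarSubalgebra ℂ A, TwoClosed N → z ∈ N → ∀ n, x n ∈ N := by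
  obtain ⟨r, f, h, hpos⟩ := exists_tower (A := A)
  have stage : ∀ k : ℕ, ∃ s : Fin 12 → A,
      (∀ i, star (s i) = s i ∧ r (12 * k + 12) * s i = s i) ∧ ∀ n ≤ k, ∃ y,
        ‖v (y - x n)‖ ≤ 1 / (k + 1 : ℝ) ∧ ∀ N : StarSubalgebra ℂ A, (∀ j, r j ∈ N) →
          (∀ j, f j ∈ N) → (∀ i, s i ∈ N) → y ∈ N := by
    intro k
    obtain ⟨S, _, g, g1, g2⟩ := h.cols (12 * k + 12)
    have g3 : ∀ s, r (12 * k + 12) * star (g s) = star (g s) := fun s => by
      have := mul_of_star (g1 s).2.1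
      rwa [proj_star (h.proj _)] at this
    obtain ⟨s, s1, s2⟩ := approx_corner (h.proj (12 * k + 12)) (hpos _)
      (S := S × S × Fin (k + 1)) (x := fun p => star (g p.1) * x p.2.2 * g p.2.1)
      (fun p => norm_mul_le_one (norm_mul_le_one (by rw [norm_star]; exact (g1 _).1) (hx _))
        (g1 _).1)
      (fun p => by rw [← mul_assoc, ← mul_assoc, g3])
      (fun p => by rw [mul_assoc, (g1 _).2.1])
      (ε := 1 / (k + 1 : ℝ) / (Fintype.card S * Fintype.card S + 1)) (by positivity)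
    choose y y1 y2 using s2
    refine ⟨s, s1, fun n hn => ⟨∑ a, ∑ b, g a * y (a, b, ⟨n, by omega⟩) * star (g b), ?_,
      fun N k1 k2 k3 => sum_mem fun a _ => sum_mem fun b _ => mul_mem (mul_mem
        ((g1 a).2.2 N k1 k2) (y2 _ N (k1 _) k3)) (star_mem ((g1 b).2.2 N k1 k2))⟩⟩
    have e1 : x n = ∑ a, ∑ b, g a * (star (g a) * x n * g b) * star (g b) := by
      conv_lhs => rw [← one_mul (x n), ← mul_one (x n), ← g2, ← mul_assoc, Finset.sum_mul,
        Finset.sum_mul_sum]
      simp only [mul_assoc]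
    have e2 : ∀ a b, ‖v (g a * y (a, b, ⟨n, by omega⟩) * star (g b) -
        g a * (star (g a) * x n * g b) * star (g b))‖ ≤
          1 / (k + 1 : ℝ) / (Fintype.card S * Fintype.card S + 1) := fun a b => by
      rw [← sub_mul, ← mul_sub]
      exact (norm_v_mul_le_of_right (by rw [norm_star]; exact (g1 b).1) _).trans
        ((norm_v_mul_le_of_left (g1 a).1 _).trans (y1 (a, b, ⟨n, by omega⟩)))
    nth_rw 1 [e1]
    simp only [← Finset.sum_sub_distrib, map_sum]
    refine (norm_sum_le _ _).trans ((Finset.sum_le_sum fun a _ => (norm_sum_le _ _).trans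
      (Finset.sum_le_sum fun b _ => e2 a b)).trans ?_)
    simp only [Finset.sum_const, Finset.card_univ, nsmul_eq_mul]
    rw [← mul_assoc, ← mul_div_assoc, div_le_iff₀ (by positivity)]
    have : (0 : ℝ) < 1 / (k + 1 : ℝ) := by positivity
    nlinarith
  choose s s1 s2 using stage
  obtain ⟨z, hz⟩ := h.encode (s := fun j => s (j / 12) ⟨j % 12, Nat.mod_lt _ (by norm_num)⟩)
    (fun j => (s1 _ _).1) fun j => by
      rw [← (s1 _ _).2, ← mul_assoc, h.mono (by omega)]
  refine ⟨z, fun N hN hzN n => ?_⟩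
  obtain ⟨k1, k2, k3⟩ := hz N hN.isClosed hzN
  choose y y1 y2 using fun m => s2 (m + n) n (by omega)
  refine hN y _ (fun m => y2 m N k1 k2 fun i => ?_) (Conv.of_le
    (tendsto_one_div_add_atTop_nhds_zero_nat (𝕜 := ℝ)) fun m => (y1 m).trans
      (Nat.one_div_le_one_div (by omega)))
  have := k3 (12 * (m + n) + i)
  have e1 : (12 * (m + n) + i) / 12 = m + n := by omega
  have e2 : (12 * (m + n) + i) % 12 = i := by omega
  simpa only [e1, e2] using this

end Vale.Agent.P085
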